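import Crest.Agent.H4.SF.Basic

/-! Addition and squaring of indices (tasks `add`, `sq` of S0500). -/

set_option autoImplicit false

namespace Crest.Agent.H4.SD

namespace AddX

variable {a d : ℕ → ℕ} {l : ℝ}

theorem sf_coprime : SF2 fun A D => 0 < D ∧ A.Coprime D := by
  apply SF2.mk
  refine (SF.ex (S := fun u (v : Fin 2 → ℕ) => 0 < v 1 ∧ u < v 1 ∧ v 0 * u ≡ 1 [MOD v 1])
    (by sf) ?_).congr fun v => ⟨fun ⟨u, h0, _, h⟩ => ⟨h0, Nat.coprime_of_mul_modEq_one u h⟩,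
      fun ⟨h0, hc⟩ => ?_⟩
  · rintro v x y ⟨-, hx, h1⟩ ⟨-, hy, h2⟩
    have hc : (v 1).Coprime (v 0) := (Nat.coprime_of_mul_modEq_one x h1).symm
    exact Nat.ModEq.eq_of_lt_of_lt
      (Nat.ModEq.cancel_left_of_coprime hc (h1.trans h2.symm)) hx hy
  · obtain ⟨u, hu, h⟩ := Nat.exists_mul_mod_eq_of_coprime 1 hc h0.ne'
    exact ⟨u, h0, hu, h⟩

theorem sf_sol : SF2 Sol := by
  apply SF2.mk
  refine ((sf_coprime (SFn.proj 0) (SFn.proj 1)).and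
    (SF.ex (S := fun s (v : Fin 2 → ℕ) => s ^ 2 + 2 * v 1 ^ 4 = v 0 ^ 4) (by sf) ?_)).congr
    fun v => and_assoc
  intro v x y h h'
  exact Nat.pow_left_injective two_ne_zero (show x ^ 2 = y ^ 2 by omega)

theorem tq_iff {A₁ D₁ A₂ D₂ A₃ D₃ : ℕ} (h₁ : 0 < D₁) (h₂ : 0 < D₂) (h₃ : 0 < D₃) :
    Tq (((A₁ : ℚ) / D₁) ^ 2) (((A₂ : ℚ) / D₂) ^ 2) (((A₃ : ℚ) / D₃) ^ 2) = 0 ↔
    (A₁ ^ 2 * A₂ ^ 2 * D₃ ^ 2 + A₁ ^ 2 * A₃ ^ 2 * D₂ ^ 2 + A₂ ^ 2 * A₃ ^ 2 * D₁ ^ 2 +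
      2 * D₁ ^ 2 * D₂ ^ 2 * D₃ ^ 2) ^ 2 = 4 * A₁ ^ 2 * A₂ ^ 2 * A₃ ^ 2 *
      (A₁ ^ 2 * D₂ ^ 2 * D₃ ^ 2 + A₂ ^ 2 * D₁ ^ 2 * D₃ ^ 2 + A₃ ^ 2 * D₁ ^ 2 * D₂ ^ 2) := by
  have e₁ : (D₁ : ℚ) ≠ 0 := by positivity
  have e₂ : (D₂ : ℚ) ≠ 0 := by positivity
  have e₃ : (D₃ : ℚ) ≠ 0 := by positivity
  rw [← Nat.cast_inj (R := ℚ), ← sub_eq_zero]
  have e : Tq (((A₁ : ℚ) / D₁) ^ 2) (((A₂ : ℚ) / D₂) ^ 2) (((A₃ : ℚ) / D₃) ^ 2) =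
      ((((A₁ ^ 2 * A₂ ^ 2 * D₃ ^ 2 + A₁ ^ 2 * A₃ ^ 2 * D₂ ^ 2 + A₂ ^ 2 * A₃ ^ 2 * D₁ ^ 2 +
      2 * D₁ ^ 2 * D₂ ^ 2 * D₃ ^ 2) ^ 2 : ℕ) : ℚ) - ((4 * A₁ ^ 2 * A₂ ^ 2 * A₃ ^ 2 *
      (A₁ ^ 2 * D₂ ^ 2 * D₃ ^ 2 + A₂ ^ 2 * D₁ ^ 2 * D₃ ^ 2 + A₃ ^ 2 * D₁ ^ 2 * D₂ ^ 2) : ℕ) : ℚ)) /
      ((D₁ : ℚ) * D₂ * D₃) ^ 4 := by
    unfold Tq; push_cast; field_simp
  rw [sub_zero, e, div_eq_zero_iff, or_iff_left (by positivity), sub_eq_zero]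

theorem pow_ge (h : Seq a d l) {m n : ℕ} (k : ℕ) (hk : m + k ≤ n) : 3 ^ k * l ^ m ≤ l ^ n := by
  have h3 := h.three_le
  calc 3 ^ k * l ^ m ≤ l ^ k * l ^ m := by gcongr
    _ = l ^ (m + k) := by ring
    _ ≤ l ^ n := pow_le_pow_right₀ (by linarith) hk

theorem lpos (h : Seq a d l) (n : ℕ) : 0 < l ^ n := pow_pos (by linarith [h.three_le]) n

theorem a_lt (h : Seq a d l) {i j : ℕ} (hi : 1 ≤ i) (hij : i < j) : a i < a j := by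
  have h1 := h.le i hi
  have h2 := h.ge j (by omega)
  have h3 := pow_ge h (m := i ^ 2) (n := j ^ 2) 1 (Nat.pow_lt_pow_left hij two_ne_zero)
  have h4 := lpos h (i ^ 2)
  exact_mod_cast (by linarith : (a i : ℝ) < a j)

theorem a_inj (h : Seq a d l) {i j : ℕ} (hi : 1 ≤ i) (hj : 1 ≤ j) (e : a i = a j) : i = j := by
  rcases lt_trichotomy i j with hh | hh | hh
  · exact absurd e (a_lt h hi hh).ne
  · exact hh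
  · exact absurd e (a_lt h hj hh).ne'

theorem a_pos (h : Seq a d l) {i : ℕ} (hi : 1 ≤ i) : 0 < a i := by
  have h2 := h.ge i hi
  have h4 := lpos h (i ^ 2)
  exact_mod_cast (by linarith : (0 : ℝ) < a i)

theorem a_mul_lt (h : Seq a d l) {i j : ℕ} (hi : 1 ≤ i) (hj : 1 ≤ j) : a i * a j < a (i + j) := by
  have h1 := h.le i hi
  have h1' := h.le j hj
  have h2 := h.ge (i + j) (by omega)
  have h3 := pow_ge h (m := i ^ 2 + j ^ 2) (n := (i + j) ^ 2) 1 (by nlinarith)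
  have h4 := lpos h (i ^ 2 + j ^ 2)
  have h5 : (a i : ℝ) * a j ≤ l ^ (i ^ 2 + j ^ 2) := by
    rw [pow_add]; exact mul_le_mul h1 h1' (Nat.cast_nonneg _) (lpos h _).le
  exact_mod_cast (by linarith : (a i : ℝ) * a j < a (i + j))

theorem sol (h : Seq a d l) {i : ℕ} (hi : 1 ≤ i) : Sol (a i) (d i) :=
  (h.sol _ _).2 ⟨i, hi, rfl, rfl⟩

theorem test (h : Seq a d l) {m M : ℕ} (hm : 1 ≤ m) (hM : 1 ≤ M) :
    (a M * a (m + m) * a 2 ≤ 2 * a (M + 2) ∧ a (M + 2) ≤ 8 * (a M * a (m + m) * a 2)) ↔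
      M = m ^ 2 := by
  have u1 := h.le M hM
  have u2 := h.le (m + m) (by omega)
  have u3 := h.le 2 (by omega)
  have u4 := h.le (M + 2) (by omega)
  have v1 := h.ge M hM
  have v2 := h.ge (m + m) (by omega)
  have v3 := h.ge 2 (by omega)
  have v4 := h.ge (M + 2) (by omega)
  have p1 := lpos h (M ^ 2)
  have p2 := lpos h ((m + m) ^ 2)
  have p3 := lpos h (2 ^ 2)
  have pE := lpos h (M ^ 2 + (m + m) ^ 2 + 2 ^ 2)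
  have hu : (a M : ℝ) * a (m + m) * a 2 ≤ l ^ (M ^ 2 + (m + m) ^ 2 + 2 ^ 2) := by
    rw [pow_add, pow_add]; gcongr
  have hv : l ^ (M ^ 2 + (m + m) ^ 2 + 2 ^ 2) ≤ 8 * ((a M : ℝ) * a (m + m) * a 2) := by
    rw [pow_add, pow_add]
    calc _ ≤ (2 * (a M : ℝ)) * (2 * a (m + m)) * (2 * a 2) := by gcongr
      _ = _ := by ring
  rw [← Nat.cast_le (α := ℝ), ← Nat.cast_le (α := ℝ)]
  push_cast
  refine ⟨fun ⟨h1, h2⟩ => ?_, fun e => ?_⟩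
  · rcases lt_trichotomy M (m ^ 2) with hh | hh | hh
    · have := pow_ge h (m := (M + 2) ^ 2) (n := M ^ 2 + (m + m) ^ 2 + 2 ^ 2) 4 (by nlinarith)
      have p4 := lpos h ((M + 2) ^ 2)
      nlinarith
    · exact hh
    · have := pow_ge h (n := (M + 2) ^ 2) (m := M ^ 2 + (m + m) ^ 2 + 2 ^ 2) 4 (by nlinarith)
      nlinarith
  · have e' : M ^ 2 + (m + m) ^ 2 + 2 ^ 2 = (M + 2) ^ 2 := by rw [e]; ring
    rw [e'] at hu hv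
    constructor <;> linarith

end AddX

open AddX

theorem t_add : T_add := by
  intro a d l h
  refine ⟨sf_sol, ?_⟩
  apply SF6.mk
  refine SF.congr (S := fun v : Fin 6 → ℕ => Sol (v 0) (v 1) ∧ Sol (v 2) (v 3) ∧ Sol (v 4) (v 5) ∧
    (v 0 ^ 2 * v 2 ^ 2 * v 5 ^ 2 + v 0 ^ 2 * v 4 ^ 2 * v 3 ^ 2 + v 2 ^ 2 * v 4 ^ 2 * v 1 ^ 2 +
      2 * v 1 ^ 2 * v 3 ^ 2 * v 5 ^ 2) ^ 2 = 4 * v 0 ^ 2 * v 2 ^ 2 * v 4 ^ 2 *
      (v 0 ^ 2 * v 3 ^ 2 * v 5 ^ 2 + v 2 ^ 2 * v 1 ^ 2 * v 5 ^ 2 + v 4 ^ 2 * v 1 ^ 2 * v 3 ^ 2) ∧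
      v 0 * v 2 < v 4) ?_ fun v => ⟨fun ⟨h1, h2, h3, h4, h5⟩ => ?_, ?_⟩
  · repeat' first | with_reducible sf1 | apply sf_sol
  · rw [← tq_iff h1.1 h2.1 h3.1] at h4
    obtain ⟨i, hi, e0, e1⟩ := (h.sol _ _).1 h1
    obtain ⟨j, hj, e2, e3⟩ := (h.sol _ _).1 h2
    obtain ⟨k, hk, e4, e5⟩ := (h.sol _ _).1 h3
    rw [e0, e1, e2, e3, e4, e5, h.tq i j k hi hj hk] at h4
    rw [e0, e2, e4] at h5
    have pi := a_pos h hi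
    have pj := a_pos h hj
    rcases h4 with rfl | h4 | h4
    · exact ⟨i, j, hi, hj, e0, e1, e2, e3, e4, e5⟩
    · have := a_lt h hk (show k < i by omega)
      nlinarith
    · have := a_lt h hk (show k < j by omega)
      nlinarith
  · rintro ⟨i, j, hi, hj, e0, e1, e2, e3, e4, e5⟩
    rw [e0, e1, e2, e3, e4, e5]
    have hij : 1 ≤ i + j := by omega
    refine ⟨sol h hi, sol h hj, sol h hij, ?_, a_mul_lt h hi hj⟩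
    rw [← tq_iff (sol h hi).1 (sol h hj).1 (sol h hij).1, h.tq i j _ hi hj hij]
    exact Or.inl rfl

theorem t_sq : T_sq := by
  intro a d l h _ hA
  apply SF4.mk
  refine (SF.ex4 (S := fun A₂ D₂ A₃ D₃ (v : Fin 4 → ℕ) => AddR a d (v 0) (v 1) (v 0) (v 1) A₂ D₂ ∧
    AddR a d (v 2) (v 3) (a 2) (d 2) A₃ D₃ ∧ v 2 * A₂ * a 2 ≤ 2 * A₃ ∧
      A₃ ≤ 8 * (v 2 * A₂ * a 2)) ?_ ?_).congr fun v => ⟨?_, ?_⟩
  · repeat' first | with_reducible sf1 | apply hA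
  · rintro v _ _ _ _ _ _ _ _ ⟨⟨i, j, hi, hj, e0, -, e2, -, rfl, rfl⟩,
      ⟨k, n, hk, hn, e4, -, e6, -, rfl, rfl⟩, -⟩ ⟨⟨i', j', hi', hj', e0', -, e2', -, rfl, rfl⟩,
      ⟨k', n', hk', hn', e4', -, e6', -, rfl, rfl⟩, -⟩
    obtain rfl := a_inj h hi hi' (e0.symm.trans e0')
    obtain rfl := a_inj h hj hj' (e2.symm.trans e2')
    obtain rfl := a_inj h hk hk' (e4.symm.trans e4')
    obtain rfl := a_inj h hn hn' (e6.symm.trans e6')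
    exact ⟨rfl, rfl, rfl, rfl⟩
  · rintro ⟨_, _, _, _, ⟨i, j, hi, hj, e0, e1, e2, -, rfl, rfl⟩,
      ⟨k, n, hk, hn, e4, e5, e6, -, rfl, rfl⟩, ht⟩
    obtain rfl := a_inj h hi hj (e0.symm.trans e2)
    obtain rfl := a_inj h (by omega) hn e6
    rw [e4, test h hi hk] at ht
    subst ht
    exact ⟨i, hi, e0, e1, e4, e5⟩
  · rintro ⟨m, hm, e0, e1, e2, e3⟩
    have hm2 : 1 ≤ m ^ 2 := Nat.one_le_pow _ _ hm
    refine ⟨_, _, _, _, ⟨m, m, hm, hm, e0, e1, e0, e1, rfl, rfl⟩,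
      ⟨m ^ 2, 2, hm2, by omega, e2, e3, rfl, rfl, rfl, rfl⟩, ?_⟩
    rw [e2]
    exact (test h hm hm2).2 rfl

end Crest.Agent.H4.SD
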