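import Crest.Agent.H4.SF.Basic

/-! Task `ball` of the S0500 plan: closure of single-fold predicates under bounded `∀`. -/

set_option autoImplicit false

namespace Crest.Agent.H4.SD

namespace BallA

variable {α β : Type}

/-- the polynomial with the bounded variable, the parameters and the unknowns filled in -/
def P (p : (Option α ⊕ β → ℕ) → ℤ) (v : α → ℕ) (i : ℕ) (w : β → ℕ) : ℤ :=
  p (Sum.elim (fun o : Option α => o.elim i v) w)

def q (f : (α → ℕ) → ℕ) (gB : (Option α → ℕ) → ℕ) (x : Option α → ℕ) : ℕ :=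
  (f fun a => x (some a)).factorial *
    (gB x + x none + f (fun a => x (some a)) + 3).factorial - 1

def M (f : (α → ℕ) → ℕ) (gB : (Option α → ℕ) → ℕ) (x : Option α → ℕ) : ℕ :=
  (q f gB x).choose (f fun a => x (some a))

def Φ (p : (Option α ⊕ β → ℕ) → ℤ) (f : (α → ℕ) → ℕ) (gB : (Option α → ℕ) → ℕ)
    (x : Option α → ℕ) (z : β → ℕ) : Prop :=
  (∀ k, z k < M f gB x ∧ M f gB x ∣ (z k).descFactorial (x none)) ∧
    (M f gB x : ℤ) ∣ P p (fun a => x (some a)) (q f gB x) z

def Ψ (p : (Option α ⊕ β → ℕ) → ℤ) (f : (α → ℕ) → ℕ) (gB : (Option α → ℕ) → ℕ)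
    (x : Option α → ℕ) (z : β → ℕ) : Prop :=
  Φ p f gB x z ∧ (x none = 0 ∨ (0 < x none ∧
    ¬∀ k, M f gB x ∣ (z k).descFactorial (x none - 1)))

theorem sf_Ψ [Fintype β] (hch : Fn2 Nat.choose) (hfa : Fn1 Nat.factorial)
    (hde : Fn2 Nat.descFactorial) {p : (Option α ⊕ β → ℕ) → ℤ} (hp : IsPoly p)
    {f : (α → ℕ) → ℕ} (hf : SFn f) {gB : (Option α → ℕ) → ℕ} (hB : SFn gB) :
    SF fun w : Option α ⊕ β → ℕ => Ψ p f gB (fun a => w (Sum.inl a)) (fun b => w (Sum.inr b)) := by
  have hq0 : SFn (q f gB) :=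
    ((hfa (hf.map some)).mul (hfa (((hB.add (SFn.proj none)).add (hf.map some)).add
      (SFn.const 3)))).sub (SFn.const 1)
  have hM0 : SFn (M f gB) := hch hq0 (hf.map some)
  have hq : SFn fun w : Option α ⊕ β → ℕ => q f gB fun a => w (Sum.inl a) := hq0.map Sum.inl
  have hM : SFn fun w : Option α ⊕ β → ℕ => M f gB fun a => w (Sum.inl a) := hM0.map Sum.inl
  obtain ⟨g₁, g₂, hg₁, hg₂, hg⟩ := SF.split (α := Option α ⊕ β) hp
    (σ := fun c w => Sum.elim (fun o : Option α => o.elim (q f gB fun a => w (Sum.inl a))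
      fun a => w (Sum.inl (some a))) (fun b => w (Sum.inr b)) c) (fun c => by
      rcases c with (_ | a) | b
      · exact hq
      · exact SFn.proj _
      · exact SFn.proj _)
  have h1 : SF fun w : Option α ⊕ β → ℕ => ∀ k, w (Sum.inr k) < M f gB (fun a => w (Sum.inl a)) ∧
      M f gB (fun a => w (Sum.inl a)) ∣ (w (Sum.inr k)).descFactorial (w (Sum.inl none)) :=
    SF.forall_fin fun k => (SF.lt (SFn.proj _) hM).and
      (SF.dvd hM (hde (SFn.proj _) (SFn.proj _)))
  have h2 : SF fun w : Option α ⊕ β → ℕ => (M f gB (fun a => w (Sum.inl a)) : ℤ) ∣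
      P p (fun a => w (Sum.inl (some a))) (q f gB fun a => w (Sum.inl a))
        (fun b => w (Sum.inr b)) :=
    (SF.modEq hg₂ hg₁ hM).congr fun w => by
      rw [Nat.modEq_iff_dvd, ← hg w]; rfl
  have h3 : SF fun w : Option α ⊕ β → ℕ => ¬∀ k, M f gB (fun a => w (Sum.inl a)) ∣
      (w (Sum.inr k)).descFactorial (w (Sum.inl none) - 1) :=
    (SF.ne (SFn.sum Finset.univ fun k => (hde (SFn.proj (Sum.inr k))
      ((SFn.proj (Sum.inl none)).sub (SFn.const 1))).mod hM) (SFn.const 0)).congr fun w => by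
      simp only [ne_eq, Finset.sum_eq_zero_iff, Finset.mem_univ, true_imp_iff,
        Nat.dvd_iff_mod_eq_zero]
  exact (h1.and h2).and ((SF.eq (SFn.proj _) (SFn.const 0)).or
    ((SF.lt (SFn.const 0) (SFn.proj _)).and h3) fun w h h' =>
      h'.1.ne' h)

end BallA

open BallA in
theorem t_ball : T_ball := by
  intro hcrt hch hfa hde α S f hS hf
  obtain ⟨β, _, p, hp, H⟩ := hS
  obtain ⟨gB, hB, hbd⟩ := SF.bound (α := Option α) hp
    (σ := fun c x => Sum.elim (fun o : Option α => o.elim (f fun a => x (some a))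
      fun a => x (some a)) (fun _ => x none) c) (fun c => by
      rcases c with (_ | a) | b
      · exact hf.map some
      · exact SFn.proj _
      · exact SFn.proj _)
  have HS : ∀ v i, S i v ↔ ∃ w, P p v i w = 0 := fun v i => (H fun o => o.elim i v).1
  have HU : ∀ v i w w', P p v i w = 0 → P p v i w' = 0 → w = w' :=
    fun v i => (H fun o => o.elim i v).2
  -- the Chinese remainder facts
  have C : ∀ (v : α → ℕ) (u : ℕ),
      ((∀ i, i < f v → ∃ w, (∀ k, w k < u) ∧ P p v i w = 0) ↔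
        ∃ z, Φ p f gB (fun o => o.elim u v) z) ∧
      (∀ z z', Φ p f gB (fun o => o.elim u v) z → Φ p f gB (fun o => o.elim u v) z' → z = z') ∧
      ∀ z, Φ p f gB (fun o => o.elim u v) z → ∀ u', u' ≤ u →
        ((∀ k, M f gB (fun o => o.elim u v) ∣ (z k).descFactorial u') ↔
          ∀ i, i < f v → ∀ w, P p v i w = 0 → ∀ k, w k < u') := by
    intro v u
    refine hcrt β (f v) u (gB fun o => o.elim u v) (P p v) ?_ ?_ (fun i _ => HU v i)
      (q f gB fun o => o.elim u v) (M f gB fun o => o.elim u v) _ rfl rfl fun z => Iff.rfl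
    · intro m i i' w w' hi hw
      refine poly_modEq hp m fun c => ?_
      rcases c with (_ | a) | b
      · exact hi
      · exact Nat.ModEq.refl _
      · exact hw b
    · intro i hi w hw
      refine hbd _ _ fun c => ?_
      rcases c with (_ | a) | b
      · exact hi.le
      · exact le_rfl
      · exact (hw b).le
  have key : ∀ x : Option α → ℕ, (fun o : Option α => o.elim (x none) fun a => x (some a)) = x :=
    fun x => by funext o; cases o <;> rfl
  have h1 : SF fun x : Option α → ℕ => ∃ z, Ψ p f gB x z := by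
    refine SF.exs (S := fun z x => Ψ p f gB x z) (sf_Ψ hch hfa hde hp hf hB) fun x z z' h h' => ?_
    have := (C (fun a => x (some a)) (x none)).2.1 z z'
    rw [key] at this
    exact this h.1 h'.1
  have lt_false : ∀ (v : α → ℕ) (u u' : ℕ) (z z' : β → ℕ), Ψ p f gB (fun o => o.elim u v) z →
      Ψ p f gB (fun o => o.elim u' v) z' → ¬u < u' := by
    intro v u u' z z' h h' hlt
    have e := (C v u).1.2 ⟨z, h.1⟩
    rcases h'.2 with h0 | h0
    · change u' = 0 at h0; omega
    · refine h0.2 (((C v u').2.2 z' h'.1 (u' - 1) (Nat.sub_le _ _)).2 fun i hi w hw k => ?_)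
      obtain ⟨w', hw', hw''⟩ := e i hi
      rw [HU v i w w' hw hw'']
      have := hw' k; omega
  refine (SF.ex (S := fun u v => ∃ z, Ψ p f gB (fun o => o.elim u v) z)
    (h1.congr fun x => by rw [key]) fun v u u' ⟨z, h⟩ ⟨z', h'⟩ => ?_).congr fun v => ⟨?_, ?_⟩
  · have := lt_false v u u' z z' h h'
    have := lt_false v u' u z' z h' h
    omega
  · rintro ⟨u, z, h⟩ i hi
    obtain ⟨w, -, hw⟩ := (C v u).1.2 ⟨z, h.1⟩ i hi
    exact (HS v i).2 ⟨w, hw⟩
  · intro h
    classical
    have ex : ∃ u, ∀ i, i < f v → ∃ w, (∀ k, w k < u) ∧ P p v i w = 0 := by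
      choose! w hw using fun i hi => (HS v i).1 (h i hi)
      refine ⟨(∑ i ∈ Finset.range (f v), ∑ k, w i k) + 1, fun i hi => ⟨w i, fun k => ?_, hw i hi⟩⟩
      refine Nat.lt_succ_of_le (le_trans ?_ (Finset.single_le_sum
        (f := fun i => ∑ k, w i k) (fun _ _ => Nat.zero_le _) (Finset.mem_range.2 hi)))
      exact Finset.single_le_sum (f := fun k => w i k) (fun _ _ => Nat.zero_le _)
        (Finset.mem_univ k)
    obtain ⟨z, hz⟩ := (C v (Nat.find ex)).1.1 (Nat.find_spec ex)
    refine ⟨Nat.find ex, z, hz, ?_⟩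
    rcases Nat.eq_zero_or_pos (Nat.find ex) with h0 | h0
    · exact Or.inl h0
    · refine Or.inr ⟨h0, fun hd => Nat.find_min ex (m := Nat.find ex - 1) (by omega) fun i hi => ?_⟩
      obtain ⟨w, -, hw⟩ := Nat.find_spec ex i hi
      exact ⟨w, ((C v (Nat.find ex)).2.2 z hz _ (Nat.sub_le _ _)).1 hd i hi w hw, hw⟩

end Crest.Agent.H4.SD
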