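import Crest.Agent.H4.SF.Defs

/-! Closure library for single-fold Diophantine predicates. -/

set_option autoImplicit false

namespace Crest.Agent.H4.SD

variable {α : Type}

section poly

theorem poly_map {γ δ : Type} {p : (γ → ℕ) → ℤ} (hp : IsPoly p) (e : γ → δ) :
    IsPoly fun v : δ → ℕ => p fun c => v (e c) := by
  induction hp with
  | proj i => exact IsPoly.proj _
  | const n => exact IsPoly.const _
  | sub _ _ h1 h2 => exact h1.sub h2
  | mul _ _ h1 h2 => exact h1.mul h2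

theorem poly_add {γ : Type} {p q : (γ → ℕ) → ℤ} (hp : IsPoly p) (hq : IsPoly q) :
    IsPoly fun v => p v + q v := hp.add hq

theorem poly_sum {γ ι : Type} (s : Finset ι) {p : ι → (γ → ℕ) → ℤ} (hp : ∀ i, IsPoly (p i)) :
    IsPoly fun v => ∑ i ∈ s, p i v := by
  classical
  induction s using Finset.induction_on with
  | empty => simpa using IsPoly.const 0
  | insert a s ha ih => simpa [Finset.sum_insert ha] using poly_add (hp a) ih

theorem poly_modEq {γ : Type} {p : (γ → ℕ) → ℤ} (hp : IsPoly p) (m : ℕ) {v w : γ → ℕ}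
    (h : ∀ c, v c ≡ w c [MOD m]) : p v ≡ p w [ZMOD m] := by
  induction hp with
  | proj i => exact Int.natCast_modEq_iff.2 (h i)
  | const n => rfl
  | sub _ _ h1 h2 => exact h1.sub h2
  | mul _ _ h1 h2 => exact h1.mul h2

end poly

theorem SF.congr {S T : (α → ℕ) → Prop} (h : SF S) (H : ∀ v, S v ↔ T v) : SF T := by
  rwa [show T = S from funext fun v => propext (H v).symm]

theorem SF.of_poly {p : (α → ℕ) → ℤ} (hp : IsPoly p) : SF fun v => p v = 0 :=
  ⟨Empty, inferInstance, fun w => p fun a => w (Sum.inl a), poly_map hp _, fun _ =>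
    ⟨⟨fun h => ⟨Empty.elim, h⟩, fun ⟨_, h⟩ => h⟩, fun _ _ _ _ => Subsingleton.elim _ _⟩⟩

theorem SF.map {γ : Type} {S : (α → ℕ) → Prop} (h : SF S) (e : α → γ) :
    SF fun w : γ → ℕ => S fun a => w (e a) := by
  obtain ⟨β, _, p, hp, H⟩ := h
  have key : ∀ (w : γ → ℕ) (t : β → ℕ),
      (fun c => Sum.elim w t (Sum.map e id c)) = Sum.elim (fun a => w (e a)) t := by
    intro w t; funext c; cases c <;> rfl
  refine ⟨β, inferInstance, fun w => p fun c => w (Sum.map e id c), poly_map hp _, fun w => ?_⟩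
  simp only [key]
  exact H _

theorem SF.and {S T : (α → ℕ) → Prop} (hS : SF S) (hT : SF T) : SF fun v => S v ∧ T v := by
  obtain ⟨β, _, p, hp, H⟩ := hS
  obtain ⟨γ, _, q, hq, K⟩ := hT
  have k1 : ∀ (v : α → ℕ) (t : β ⊕ γ → ℕ), (fun c => Sum.elim v t (Sum.map id Sum.inl c)) =
      Sum.elim v fun b => t (Sum.inl b) := by intro v t; funext c; cases c <;> rfl
  have k2 : ∀ (v : α → ℕ) (t : β ⊕ γ → ℕ), (fun c => Sum.elim v t (Sum.map id Sum.inr c)) =
      Sum.elim v fun b => t (Sum.inr b) := by intro v t; funext c; cases c <;> rfl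
  refine ⟨β ⊕ γ, inferInstance, fun w => (p fun c => w (Sum.map id Sum.inl c)) *
    (p fun c => w (Sum.map id Sum.inl c)) + (q fun c => w (Sum.map id Sum.inr c)) *
    (q fun c => w (Sum.map id Sum.inr c)), poly_add ((poly_map hp _).mul (poly_map hp _))
      ((poly_map hq _).mul (poly_map hq _)), fun v => ?_⟩
  simp only [k1, k2, mul_self_add_mul_self_eq_zero]
  refine ⟨⟨fun ⟨h1, h2⟩ => ?_, fun ⟨t, h1, h2⟩ => ⟨(H v).1.2 ⟨_, h1⟩, (K v).1.2 ⟨_, h2⟩⟩⟩,
    fun t t' h h' => ?_⟩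
  · obtain ⟨t, ht⟩ := (H v).1.1 h1
    obtain ⟨u, hu⟩ := (K v).1.1 h2
    exact ⟨Sum.elim t u, ht, hu⟩
  · have e1 := (H v).2 _ _ h.1 h'.1
    have e2 := (K v).2 _ _ h.2 h'.2
    funext c
    cases c with
    | inl b => exact congrFun e1 b
    | inr b => exact congrFun e2 b

theorem SF.or {S T : (α → ℕ) → Prop} (hS : SF S) (hT : SF T) (hd : ∀ v, S v → T v → False) :
    SF fun v => S v ∨ T v := by
  obtain ⟨β, _, p, hp, H⟩ := hS
  obtain ⟨γ, _, q, hq, K⟩ := hT
  have k1 : ∀ (v : α → ℕ) (t : β ⊕ γ → ℕ), (fun c => Sum.elim v t (Sum.map id Sum.inl c)) =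
      Sum.elim v fun b => t (Sum.inl b) := by intro v t; funext c; cases c <;> rfl
  have k2 : ∀ (v : α → ℕ) (t : β ⊕ γ → ℕ), (fun c => Sum.elim v t (Sum.map id Sum.inr c)) =
      Sum.elim v fun b => t (Sum.inr b) := by intro v t; funext c; cases c <;> rfl
  have z : ∀ {ι : Type} [Fintype ι] (x : ℤ) (f : ι → ℕ),
      x * x + ∑ i, (f i : ℤ) = 0 ↔ x = 0 ∧ ∀ i, f i = 0 := by
    intro ι _ x f
    have h0 : 0 ≤ ∑ i, (f i : ℤ) := Finset.sum_nonneg fun _ _ => Int.natCast_nonneg _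
    rw [add_eq_zero_iff_of_nonneg (mul_self_nonneg x) h0, mul_self_eq_zero,
      Finset.sum_eq_zero_iff_of_nonneg fun _ _ => Int.natCast_nonneg _]
    simp
  refine ⟨β ⊕ γ, inferInstance, fun w => ((p fun c => w (Sum.map id Sum.inl c)) *
    (p fun c => w (Sum.map id Sum.inl c)) + ∑ c : γ, (w (Sum.inr (Sum.inr c)) : ℤ)) *
    ((q fun c => w (Sum.map id Sum.inr c)) * (q fun c => w (Sum.map id Sum.inr c)) +
      ∑ c : β, (w (Sum.inr (Sum.inl c)) : ℤ)),
    (poly_add ((poly_map hp _).mul (poly_map hp _)) (poly_sum _ fun _ => IsPoly.proj _)).mul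
      (poly_add ((poly_map hq _).mul (poly_map hq _)) (poly_sum _ fun _ => IsPoly.proj _)),
    fun v => ?_⟩
  simp only [k1, k2, mul_eq_zero, z, Sum.elim_inr]
  refine ⟨⟨fun h => ?_, fun ⟨t, h⟩ => h.imp (fun h => (H v).1.2 ⟨_, h.1⟩)
    fun h => (K v).1.2 ⟨_, h.1⟩⟩, fun t t' h h' => ?_⟩
  · rcases h with h | h
    · obtain ⟨t, ht⟩ := (H v).1.1 h
      exact ⟨Sum.elim t 0, Or.inl ⟨ht, fun _ => rfl⟩⟩
    · obtain ⟨t, ht⟩ := (K v).1.1 h
      exact ⟨Sum.elim 0 t, Or.inr ⟨ht, fun _ => rfl⟩⟩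
  · rcases h with h | h <;> rcases h' with h' | h'
    · funext c
      cases c with
      | inl b => exact congrFun ((H v).2 _ _ h.1 h'.1) b
      | inr b => rw [h.2, h'.2]
    · exact (hd v ((H v).1.2 ⟨_, h.1⟩) ((K v).1.2 ⟨_, h'.1⟩)).elim
    · exact (hd v ((H v).1.2 ⟨_, h'.1⟩) ((K v).1.2 ⟨_, h.1⟩)).elim
    · funext c
      cases c with
      | inl b => rw [h.2, h'.2]
      | inr b => exact congrFun ((K v).2 _ _ h.1 h'.1) b

/-- a finite block of unique witnesses -/
theorem SF.exs {β : Type} [Fintype β] {S : (β → ℕ) → (α → ℕ) → Prop}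
    (h : SF fun w : α ⊕ β → ℕ => S (fun b => w (Sum.inr b)) (fun a => w (Sum.inl a)))
    (hu : ∀ v t t', S t v → S t' v → t = t') : SF fun v => ∃ t, S t v := by
  obtain ⟨γ, _, p, hp, H⟩ := h
  have k1 : ∀ (v : α → ℕ) (t : β ⊕ γ → ℕ),
      (fun c => Sum.elim v t (Equiv.sumAssoc α β γ c)) =
      Sum.elim (Sum.elim v fun b => t (Sum.inl b)) fun b => t (Sum.inr b) := by
    intro v t; funext c; rcases c with (c | c) | c <;> rfl
  refine ⟨β ⊕ γ, inferInstance, fun w => p fun c => w (Equiv.sumAssoc α β γ c), poly_map hp _,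
    fun v => ?_⟩
  simp only [k1]
  refine ⟨⟨fun ⟨t, ht⟩ => ?_, fun ⟨t, ht⟩ => ⟨_, (H _).1.2 ⟨_, ht⟩⟩⟩, fun t t' h h' => ?_⟩
  · obtain ⟨u, hu⟩ := (H (Sum.elim v t)).1.1 ht
    exact ⟨Sum.elim t u, hu⟩
  · have e1 : (fun b => t (Sum.inl b)) = fun b => t' (Sum.inl b) :=
      hu v _ _ ((H _).1.2 ⟨_, h⟩) ((H _).1.2 ⟨_, h'⟩)
    rw [e1] at h
    have e2 := (H _).2 _ _ h h'
    funext c
    cases c with
    | inl b => exact congrFun e1 b
    | inr b => exact congrFun e2 b

theorem SF.ex {S : ℕ → (α → ℕ) → Prop}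
    (h : SF fun w : Option α → ℕ => S (w none) (fun a => w (some a)))
    (hu : ∀ v x y, S x v → S y v → x = y) : SF fun v => ∃ x, S x v := by
  refine (SF.exs (β := Unit) (S := fun t v => S (t ()) v)
    (h.map fun o => o.elim (Sum.inr ()) Sum.inl) fun v t t' h h' => ?_).congr fun v =>
    ⟨fun ⟨t, ht⟩ => ⟨_, ht⟩, fun ⟨x, hx⟩ => ⟨fun _ => x, hx⟩⟩
  funext c; exact hu v _ _ h h'

theorem SF.ex2 {S : ℕ → ℕ → (α → ℕ) → Prop}
    (h : SF fun w : Option (Option α) → ℕ =>
      S (w (some none)) (w none) (fun a => w (some (some a))))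
    (hu : ∀ v x y x' y', S x y v → S x' y' v → x = x' ∧ y = y') :
    SF fun v => ∃ x y, S x y v :=
  SF.ex (SF.ex h fun _ _ _ h h' => (hu _ _ _ _ _ h h').2)
    fun _ _ _ ⟨_, h⟩ ⟨_, h'⟩ => (hu _ _ _ _ _ h h').1

theorem SF.ex3 {S : ℕ → ℕ → ℕ → (α → ℕ) → Prop}
    (h : SF fun w : Option (Option (Option α)) → ℕ =>
      S (w (some (some none))) (w (some none)) (w none) (fun a => w (some (some (some a)))))
    (hu : ∀ v x y z x' y' z', S x y z v → S x' y' z' v → x = x' ∧ y = y' ∧ z = z') :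
    SF fun v => ∃ x y z, S x y z v :=
  SF.ex (SF.ex2 h fun _ _ _ _ _ h h' => (hu _ _ _ _ _ _ _ h h').2)
    fun _ _ _ ⟨_, _, h⟩ ⟨_, _, h'⟩ => (hu _ _ _ _ _ _ _ h h').1

theorem SF.ex4 {S : ℕ → ℕ → ℕ → ℕ → (α → ℕ) → Prop}
    (h : SF fun w : Option (Option (Option (Option α))) → ℕ =>
      S (w (some (some (some none)))) (w (some (some none))) (w (some none)) (w none)
        (fun a => w (some (some (some (some a))))))
    (hu : ∀ v x y z t x' y' z' t', S x y z t v → S x' y' z' t' v →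
      x = x' ∧ y = y' ∧ z = z' ∧ t = t') :
    SF fun v => ∃ x y z t, S x y z t v :=
  SF.ex (SF.ex3 h fun _ _ _ _ _ _ _ h h' => (hu _ _ _ _ _ _ _ _ _ h h').2)
    fun _ _ _ ⟨_, _, _, h⟩ ⟨_, _, _, h'⟩ => (hu _ _ _ _ _ _ _ _ _ h h').1

theorem SF.true : SF fun _ : α → ℕ => True :=
  (SF.of_poly (IsPoly.const 0)).congr fun _ => by simp

theorem SF.false : SF fun _ : α → ℕ => False :=
  (SF.of_poly (IsPoly.const 1)).congr fun _ => by simp

theorem SF.prop (p : Prop) : SF fun _ : α → ℕ => p := by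
  by_cases h : p
  · exact SF.true.congr fun _ => by simp [h]
  · exact SF.false.congr fun _ => by simp [h]

theorem SF.forall_mem {ι : Type} (s : Finset ι) {S : ι → (α → ℕ) → Prop} (h : ∀ i, SF (S i)) :
    SF fun v => ∀ i ∈ s, S i v := by
  classical
  induction s using Finset.induction_on with
  | empty => exact SF.true.congr fun _ => by simp
  | insert a s _ ih => exact ((h a).and ih).congr fun _ => by simp

theorem SF.forall_fin {ι : Type} [Fintype ι] {S : ι → (α → ℕ) → Prop} (h : ∀ i, SF (S i)) :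
    SF fun v => ∀ i, S i v :=
  (SF.forall_mem Finset.univ h).congr fun _ => by simp

theorem SFn.congr {f g : (α → ℕ) → ℕ} (h : SFn f) (H : ∀ v, f v = g v) : SFn g := by
  rwa [show g = f from funext fun v => (H v).symm]

theorem SFn.map {γ : Type} {f : (α → ℕ) → ℕ} (h : SFn f) (e : α → γ) :
    SFn fun w : γ → ℕ => f fun a => w (e a) :=
  SF.map h (Option.map e)

/-- substitution of finitely many functions -/
theorem SF.subst {γ : Type} [Fintype γ] {S : (γ → ℕ) → Prop} (h : SF S)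
    {f : γ → (α → ℕ) → ℕ} (hf : ∀ c, SFn (f c)) : SF fun v => S fun c => f c v := by
  refine (SF.exs (β := γ) (S := fun t v => S t ∧ ∀ c, f c v = t c)
    ((h.map Sum.inr).and (SF.forall_fin fun c =>
      SF.map (hf c) fun o => o.elim (Sum.inr c) Sum.inl)) fun v t t' h h' => ?_).congr
    fun v => ⟨fun ⟨t, h1, h2⟩ => ?_, fun h => ⟨_, h, fun _ => rfl⟩⟩
  · funext c; rw [← h.2, ← h'.2]
  · rwa [funext h2]

theorem SFn.proj (a : α) : SFn fun v : α → ℕ => v a :=
  (SF.of_poly ((IsPoly.proj (some a)).sub (IsPoly.proj none))).congr fun v => by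
    simp [sub_eq_zero]

theorem SFn.subst {γ : Type} [Fintype γ] {F : (γ → ℕ) → ℕ} (h : SFn F)
    {f : γ → (α → ℕ) → ℕ} (hf : ∀ c, SFn (f c)) : SFn fun v => F fun c => f c v :=
  SF.subst (α := Option α) h
    (f := fun o w => o.elim (w none) fun c => f c fun a => w (some a)) fun o => by
      cases o with
      | none => exact SFn.proj none
      | some c => exact (hf c).map some

theorem SFn.const (n : ℕ) : SFn fun _ : α → ℕ => n :=
  (SF.of_poly ((IsPoly.const n).sub (IsPoly.proj none))).congr fun v => by simp [sub_eq_zero]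

theorem SF1.mk {R : ℕ → Prop} (h : SF fun v : Fin 1 → ℕ => R (v 0)) : SF1 R :=
  fun {_ f} hf => h.subst (f := ![f]) fun c => by fin_cases c; exact hf

theorem SF2.mk {R : ℕ → ℕ → Prop} (h : SF fun v : Fin 2 → ℕ => R (v 0) (v 1)) : SF2 R :=
  fun {_ f g} hf hg => h.subst (f := ![f, g]) fun c => by fin_cases c; exacts [hf, hg]

theorem SF3.mk {R : ℕ → ℕ → ℕ → Prop} (h : SF fun v : Fin 3 → ℕ => R (v 0) (v 1) (v 2)) :
    SF3 R :=
  fun {_ f g k} hf hg hk => h.subst (f := ![f, g, k]) fun c => by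
    fin_cases c; exacts [hf, hg, hk]

theorem SF4.mk {R : ℕ → ℕ → ℕ → ℕ → Prop}
    (h : SF fun v : Fin 4 → ℕ => R (v 0) (v 1) (v 2) (v 3)) : SF4 R :=
  fun {_ f g k l} hf hg hk hl => h.subst (f := ![f, g, k, l]) fun c => by
    fin_cases c; exacts [hf, hg, hk, hl]

theorem SF6.mk {R : ℕ → ℕ → ℕ → ℕ → ℕ → ℕ → Prop}
    (h : SF fun v : Fin 6 → ℕ => R (v 0) (v 1) (v 2) (v 3) (v 4) (v 5)) : SF6 R :=
  fun {_ f g k l m n} hf hg hk hl hm hn => h.subst (f := ![f, g, k, l, m, n]) fun c => by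
    fin_cases c; exacts [hf, hg, hk, hl, hm, hn]

/-- a function from its graph -/
theorem Fn1.mk {F : ℕ → ℕ} (h : SF2 fun x y => F x = y) : Fn1 F :=
  fun hf => h (hf.map some) (SFn.proj none)

theorem Fn2.mk {F : ℕ → ℕ → ℕ} (h : SF3 fun x y z => F x y = z) : Fn2 F :=
  fun hf hg => h (hf.map some) (hg.map some) (SFn.proj none)

variable {f g : (α → ℕ) → ℕ}

theorem SF.eq (hf : SFn f) (hg : SFn g) : SF fun v => f v = g v :=
  SF2.mk (R := fun x y => x = y) ((SF.of_poly ((IsPoly.proj 0).sub (IsPoly.proj 1))).congr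
    fun v => by simp [sub_eq_zero]) hf hg

theorem SFn.add (hf : SFn f) (hg : SFn g) : SFn fun v => f v + g v :=
  Fn2.mk (F := fun x y => x + y) (SF3.mk (R := fun x y z => x + y = z) ((SF.of_poly ((poly_add (IsPoly.proj 0)
    (IsPoly.proj 1)).sub (IsPoly.proj 2))).congr fun v => by
      rw [sub_eq_zero]; norm_cast)) hf hg

theorem SFn.mul (hf : SFn f) (hg : SFn g) : SFn fun v => f v * g v :=
  Fn2.mk (F := fun x y => x * y) (SF3.mk (R := fun x y z => x * y = z) ((SF.of_poly (((IsPoly.proj 0).mul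
    (IsPoly.proj 1)).sub (IsPoly.proj 2))).congr fun v => by
      rw [sub_eq_zero]; norm_cast)) hf hg

theorem SFn.succ (hf : SFn f) : SFn fun v => (f v).succ := hf.add (SFn.const 1)

theorem SFn.pow_const (hf : SFn f) (k : ℕ) : SFn fun v => f v ^ k := by
  induction k with
  | zero => exact SFn.const 1
  | succ k ih => exact ih.mul hf

theorem SFn.sum {ι : Type} (s : Finset ι) {F : ι → (α → ℕ) → ℕ} (h : ∀ i, SFn (F i)) :
    SFn fun v => ∑ i ∈ s, F i v := by
  classical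
  induction s using Finset.induction_on with
  | empty => exact SFn.const 0
  | insert a s ha ih => exact ((h a).add ih).congr fun _ => by rw [Finset.sum_insert ha]

theorem SF.le (hf : SFn f) (hg : SFn g) : SF fun v => f v ≤ g v :=
  (SF.ex (S := fun x v => f v + x = g v) (SF.eq ((hf.map some).add (SFn.proj none)) (hg.map some))
    fun _ _ _ _ _ => by omega).congr fun _ => ⟨fun ⟨_, h⟩ => by omega, Nat.le.dest⟩

theorem SF.lt (hf : SFn f) (hg : SFn g) : SF fun v => f v < g v := SF.le hf.succ hg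

theorem SF.ne (hf : SFn f) (hg : SFn g) : SF fun v => f v ≠ g v :=
  ((SF.lt hf hg).or (SF.lt hg hf) fun _ _ _ => by omega).congr fun _ => by omega

theorem SF.not_eq (hf : SFn f) (hg : SFn g) : SF fun v => ¬f v = g v := SF.ne hf hg

theorem SF.not_le (hf : SFn f) (hg : SFn g) : SF fun v => ¬f v ≤ g v :=
  (SF.lt hg hf).congr fun _ => by omega

theorem SF.not_lt (hf : SFn f) (hg : SFn g) : SF fun v => ¬f v < g v :=
  (SF.le hg hf).congr fun _ => by omega

theorem SFn.ite {c : (α → ℕ) → Prop} [DecidablePred c] (hc : SF c) (hn : SF fun v => ¬c v)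
    (hf : SFn f) (hg : SFn g) : SFn fun v => if c v then f v else g v :=
  (((hc.map some).and hf).or ((hn.map some).and hg) fun _ h h' => h'.1 h.1).congr fun w => by
    by_cases h : c fun a => w (some a) <;> simp [h]

theorem SFn.sub (hf : SFn f) (hg : SFn g) : SFn fun v => f v - g v :=
  (((SF.eq ((hg.map some).add (SFn.proj none)) (hf.map some))).or
    ((SF.lt (hf.map some) (hg.map some)).and (SF.eq (SFn.proj none) (SFn.const 0)))
      fun _ _ _ => by omega).congr fun _ => by beta_reduce; omega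

theorem SFn.div (hf : SFn f) (hg : SFn g) : SFn fun v => f v / g v :=
  (((SF.le ((hg.map some).mul (SFn.proj none)) (hf.map some)).and
    (SF.lt (hf.map some) ((hg.map some).mul (SFn.proj none).succ))).or
    ((SF.eq (hg.map some) (SFn.const 0)).and (SF.eq (SFn.proj none) (SFn.const 0)))
      fun _ h h' => by simp [h'.1] at h).congr fun w => by
    beta_reduce
    generalize f _ = x; generalize g _ = y; generalize w none = z
    rcases Nat.eq_zero_or_pos y with rfl | hy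
    · simp [eq_comm]
    · rw [Nat.div_eq_iff hy]
      simp only [hy.ne', false_and, or_false, mul_comm y, Nat.succ_mul]
      omega

theorem SFn.mod (hf : SFn f) (hg : SFn g) : SFn fun v => f v % g v :=
  (hf.sub (hg.mul (hf.div hg))).congr fun _ => (Nat.mod_def _ _).symm

theorem SF.dvd (hf : SFn f) (hg : SFn g) : SF fun v => f v ∣ g v :=
  (SF.eq (hg.mod hf) (SFn.const 0)).congr fun _ => (Nat.dvd_iff_mod_eq_zero ..).symm

theorem SF.not_dvd (hf : SFn f) (hg : SFn g) : SF fun v => ¬f v ∣ g v :=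
  (SF.ne (hg.mod hf) (SFn.const 0)).congr fun _ => by rw [Nat.dvd_iff_mod_eq_zero]

theorem SF.modEq {k : (α → ℕ) → ℕ} (hf : SFn f) (hg : SFn g) (hk : SFn k) :
    SF fun v => f v ≡ g v [MOD k v] := SF.eq (hf.mod hk) (hg.mod hk)

theorem SFn.pair (hf : SFn f) (hg : SFn g) : SFn fun v => Nat.pair (f v) (g v) :=
  SFn.ite (SF.lt hf hg) (SF.not_lt hf hg) ((hg.mul hg).add hf) (((hf.mul hf).add hf).add hg)

theorem SFn.unpair1 (hf : SFn f) : SFn fun v => (f v).unpair.1 :=
  (SF.ex (S := fun y (w : Option α → ℕ) => Nat.pair (w none) y = f fun a => w (some a))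
    (SF.eq ((SFn.proj _).pair (SFn.proj _)) (hf.map fun a => some (some a)))
    fun _ _ _ h h' => (Nat.pair_eq_pair.1 (h.trans h'.symm)).2).congr fun w =>
    ⟨fun ⟨_, h⟩ => by beta_reduce; rw [← h, Nat.unpair_pair],
      fun h => ⟨_, by rw [← h]; exact Nat.pair_unpair _⟩⟩

theorem SFn.unpair2 (hf : SFn f) : SFn fun v => (f v).unpair.2 :=
  (SF.ex (S := fun y (w : Option α → ℕ) => Nat.pair y (w none) = f fun a => w (some a))
    (SF.eq ((SFn.proj _).pair (SFn.proj _)) (hf.map fun a => some (some a)))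
    fun _ _ _ h h' => (Nat.pair_eq_pair.1 (h.trans h'.symm)).1).congr fun w =>
    ⟨fun ⟨_, h⟩ => by beta_reduce; rw [← h, Nat.unpair_pair],
      fun h => ⟨_, by rw [← h]; exact Nat.pair_unpair _⟩⟩

/-- a polynomial in single-fold functions is a difference of two single-fold functions -/
theorem SF.split {γ : Type} {p : (γ → ℕ) → ℤ} (hp : IsPoly p) {σ : γ → (α → ℕ) → ℕ}
    (hσ : ∀ c, SFn (σ c)) : ∃ g₁ g₂ : (α → ℕ) → ℕ, SFn g₁ ∧ SFn g₂ ∧
      ∀ v, p (fun c => σ c v) = (g₁ v : ℤ) - g₂ v := by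
  induction hp with
  | proj i => exact ⟨σ i, fun _ => 0, hσ i, SFn.const 0, fun _ => by simp⟩
  | const n => exact ⟨fun _ => n.toNat, fun _ => (-n).toNat, SFn.const _, SFn.const _,
      fun _ => (Int.toNat_sub_toNat_neg n).symm⟩
  | sub _ _ h1 h2 =>
    obtain ⟨a, b, ha, hb, h1⟩ := h1
    obtain ⟨c, d, hc, hd, h2⟩ := h2
    exact ⟨_, _, ha.add hd, hb.add hc, fun v => by beta_reduce; rw [h1, h2]; push_cast; ring⟩
  | mul _ _ h1 h2 =>
    obtain ⟨a, b, ha, hb, h1⟩ := h1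
    obtain ⟨c, d, hc, hd, h2⟩ := h2
    exact ⟨_, _, (ha.mul hc).add (hb.mul hd), (ha.mul hd).add (hb.mul hc),
      fun v => by beta_reduce; rw [h1, h2]; push_cast; ring⟩

/-- a single-fold bound for a polynomial on a box -/
theorem SF.bound {γ : Type} {p : (γ → ℕ) → ℤ} (hp : IsPoly p) {σ : γ → (α → ℕ) → ℕ}
    (hσ : ∀ c, SFn (σ c)) : ∃ g : (α → ℕ) → ℕ, SFn g ∧
      ∀ v x, (∀ c, x c ≤ σ c v) → |p x| ≤ g v := by
  induction hp with
  | proj i => exact ⟨σ i, hσ i, fun v x h => by simpa using h i⟩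
  | const n => exact ⟨fun _ => n.natAbs, SFn.const _, fun _ _ _ => by simp⟩
  | sub _ _ h1 h2 =>
    obtain ⟨a, ha, h1⟩ := h1
    obtain ⟨c, hc, h2⟩ := h2
    exact ⟨_, ha.add hc, fun v x h => (abs_sub _ _).trans (by
      push_cast; exact add_le_add (h1 v x h) (h2 v x h))⟩
  | mul _ _ h1 h2 =>
    obtain ⟨a, ha, h1⟩ := h1
    obtain ⟨c, hc, h2⟩ := h2
    exact ⟨_, ha.mul hc, fun v x h => by
      rw [abs_mul]; push_cast
      exact mul_le_mul (h1 v x h) (h2 v x h) (abs_nonneg _) (Int.natCast_nonneg _)⟩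

/-- one step of the closure tactic -/
macro "sf1" : tactic => `(tactic| first
  | exact SFn.const _ | exact SFn.proj _ | assumption
  | apply SF.and | apply SF.eq | apply SF.ne | apply SF.not_eq | apply SF.lt | apply SF.le
  | apply SF.not_le | apply SF.not_lt | apply SF.modEq | apply SF.dvd | apply SF.not_dvd
  | apply SFn.pair | apply SFn.unpair1 | apply SFn.unpair2 | apply SFn.add | apply SFn.mul
  | apply SFn.sub | apply SFn.div | apply SFn.mod | apply SFn.succ | apply SFn.pow_const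
  | (apply SFn.map; assumption))

/-- closure tactic: splits conjunctions, comparisons and arithmetic; leaves the other goals -/
macro "sf" : tactic => `(tactic| repeat' with_reducible sf1)

example : SF fun v : Fin 3 → ℕ => ∃ x y, x + v 0 = v 1 * 3 ∧ y ^ 2 < v 2 / 5 ∧ y = x % 2 ∧
    x ≡ y + 1 [MOD v 1] ∧ x ≠ 7 := by
  refine SF.ex2 ?_ fun _ _ _ _ _ _ _ => by omega
  sf

example (h : Fn2 fun b n => b ^ n) (hf : SFn f) :
    SF fun v => ∃ x, x = f v ^ f v + 1 ∧ x ≤ 2 ^ (f v + x) := by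
  refine SF.ex ?_ fun _ _ _ _ _ => by omega
  repeat' first | with_reducible sf1 | apply h

example : SF3 fun x y z => x + y ≤ z ∧ x ≠ 2 * z := by
  apply SF3.mk
  sf

end Crest.Agent.H4.SD
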