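import Crest.Agent.H4.SF.Basic

/-! Binomial coefficients and factorials from exponentiation. -/

set_option autoImplicit false

namespace Crest.Agent.H4.SD

namespace CHx

theorem sum_lt {u : ℕ} (c : ℕ → ℕ) (hc : ∀ i, c i < u) (k : ℕ) :
    ∑ i ∈ Finset.range k, c i * u ^ i < u ^ k := by
  induction k with
  | zero => simp
  | succ k ih =>
    rw [Finset.sum_range_succ, pow_succ]
    have := Nat.mul_le_mul_right (u ^ k) (Nat.succ_le_of_lt (hc k))
    rw [Nat.succ_mul] at this
    nlinarith

theorem digit {u : ℕ} (c : ℕ → ℕ) (hc : ∀ i, c i < u) (k m : ℕ) :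
    (∑ i ∈ Finset.range (k + (1 + m)), c i * u ^ i) / u ^ k % u = c k := by
  have hu : 0 < u := (Nat.zero_le _).trans_lt (hc 0)
  have e : ∑ i ∈ Finset.range (k + (1 + m)), c i * u ^ i = ∑ i ∈ Finset.range k, c i * u ^ i +
      u ^ k * (c k + u * ∑ i ∈ Finset.range m, c (k + (1 + i)) * u ^ i) := by
    rw [Finset.sum_range_add, Finset.sum_range_add, mul_add, Finset.mul_sum, Finset.mul_sum]
    congr 2
    · simp [mul_comm]
    · exact Finset.sum_congr rfl fun i _ => by ring
  rw [e, Nat.add_mul_div_left _ _ (pow_pos hu k), Nat.div_eq_of_lt (sum_lt c hc k), zero_add,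
    Nat.add_mul_mod_self_left, Nat.mod_eq_of_lt (hc k)]

theorem choose_eq (n k : ℕ) :
    (2 ^ n + 1 + 1) ^ n / (2 ^ n + 1) ^ k % (2 ^ n + 1) = n.choose k := by
  rw [← digit (u := 2 ^ n + 1) (fun i => n.choose i)
    (fun i => Nat.lt_succ_of_le (Nat.choose_le_two_pow n i)) k n, add_pow]
  congr 2
  refine Eq.trans (Finset.sum_congr rfl fun i _ => ?_) (Finset.sum_subset
    (Finset.range_subset_range.2 (by omega)) fun i _ hi => ?_)
  · simp [mul_comm]
  · rw [Nat.choose_eq_zero_of_lt (by simpa using hi), zero_mul]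

theorem desc_ge (r n : ℕ) : r * r ^ n ≤ r * r.descFactorial n + n ^ 2 * r ^ n := by
  induction n with
  | zero => simp
  | succ n ih =>
    rw [Nat.descFactorial_succ, pow_succ r n]
    have h1 : r ≤ r - n + n := by omega
    have h2 := Nat.descFactorial_le_pow r n
    have h3 := Nat.mul_le_mul_left r ih
    have h4 := Nat.mul_le_mul_right (r * r.descFactorial n) h1
    have h5 := Nat.mul_le_mul_left (n * r) h2
    nlinarith [Nat.zero_le (n * (r ^ n * r)), Nat.zero_le (r ^ n * r)]

theorem fact_eq (n r : ℕ) (h : (n.factorial + 1) * n ^ 2 < r) :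
    r ^ n / r.choose n = n.factorial := by
  have hr : 0 < r := (Nat.zero_le _).trans_lt h
  have hX : 0 < r ^ n := pow_pos hr n
  have h1 := desc_ge r n
  have h2 := Nat.descFactorial_le_pow r n
  rw [Nat.descFactorial_eq_factorial_mul_choose] at h1 h2
  refine Nat.div_eq_of_lt_le h2 ?_
  have h3 := Nat.mul_le_mul_left (n.factorial + 1) h1
  have h4 := Nat.mul_lt_mul_of_pos_right h hX
  refine Nat.lt_of_mul_lt_mul_left (a := n.factorial * r) ?_
  nlinarith

end CHx

theorem t_ch : T_ch := by
  intro h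
  have hc : Fn2 Nat.choose := fun hf hg => by
    refine SFn.congr ?_ fun v => CHx.choose_eq _ _
    repeat' first | with_reducible sf1 | apply h
  have hf : Fn1 Nat.factorial := fun {_ f} hf => by
    refine SFn.congr ?_ fun v => CHx.fact_eq (f v) ((f v ^ f v + 1) * f v ^ 2 + 1)
      (Nat.lt_succ_of_le (Nat.mul_le_mul_right _ (Nat.succ_le_succ (Nat.factorial_le_pow _))))
    repeat' first | with_reducible sf1 | apply h | apply hc
  refine ⟨hc, hf, fun h1 h2 => ?_⟩
  exact ((hf h2).mul (hc h1 h2)).congr fun v =>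
    (Nat.descFactorial_eq_factorial_mul_choose _ _).symm

end Crest.Agent.H4.SD
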