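import Crest.Agent.H4.SF.Half

/-! Task `cos` of S0500: the doubles of `y² = x³ - 2x` have at most two classes modulo doubling. -/

set_option autoImplicit false

namespace Crest.Agent.H4.SD

open WeierstrassCurve WeierstrassCurve.Affine

namespace H5

lemma ns_P : W.Nonsingular (-1) 1 := (ns_iff _ _).2 (by norm_num)

lemma ns_P' : W.Nonsingular (-1) (-1) := (ns_iff _ _).2 (by norm_num)

lemma ns_T : W.Nonsingular 0 0 := (ns_iff _ _).2 (by norm_num)

/-- the point `(-1, 1)` -/
def P₁ : W.Point := Point.some (-1) 1 ns_P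

lemma neg_P₁ : -P₁ = Point.some (-1) (-1) ns_P' := by
  rw [P₁, Point.neg_some]
  congr 1
  exact negY_eq _ _

def Good (R : W.Point) : Prop :=
  ∃ R', R + R = (R' + R') + (R' + R') ∨ R + R = (R' + R') + (R' + R') + (P₁ + P₁)

lemma good_sq {w y : ℚ} (hw : w ≠ 0) (h : W.Nonsingular (w ^ 2) y) : Good (Point.some _ y h) := by
  obtain ⟨R, e⟩ := half_of_sq hw h
  exact ⟨R, Or.inl (by rw [e])⟩

lemma good_neg_sq {w y : ℚ} (hw : w ≠ 0) (h : W.Nonsingular (-w ^ 2) y) :
    Good (Point.some _ y h) := by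
  by_cases hx : -w ^ 2 = -1
  · obtain ⟨h', e⟩ := some_congr h hx
    rw [e]
    rcases eq_or_neg h' ns_P with h1 | h1
    · exact ⟨0, Or.inr (by rw [h1, P₁]; simp)⟩
    · refine ⟨-P₁, Or.inr ?_⟩
      rw [h1]
      change -P₁ + -P₁ = _
      abel
  · obtain ⟨y', h', e⟩ := add_x h ns_P' hx
    rw [← neg_P₁] at e
    have he := (ns_iff _ _).1 h
    have hx1 : -w ^ 2 - -1 ≠ 0 := sub_ne_zero.2 hx
    set v : ℚ := (y - (y - -1) / (-w ^ 2 - -1) * (-w ^ 2)) / w with hv
    have hx3 : ((y - -1) / (-w ^ 2 - -1)) ^ 2 - -w ^ 2 - -1 = v ^ 2 := by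
      have hx2 : 1 - w ^ 2 ≠ 0 := by
        intro h0; apply hx1; linarith
      have : -w ^ 2 - -1 = 1 - w ^ 2 := by ring
      rw [hv, this]
      field_simp
      linear_combination (w ^ 2 - 1) * he
    obtain ⟨h'', e'⟩ := some_congr h' hx3
    rw [e'] at e
    have hR : Point.some _ y h = Point.some (v ^ 2) y' h'' + P₁ := by
      rw [← e]; abel
    by_cases hv0 : v = 0
    · have hy' : y' = 0 := by
        have := (ns_iff _ _).1 h''
        rw [hv0] at this
        simpa using this
      refine ⟨0, Or.inr ?_⟩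
      have h0 := dbl_zero h'' hy'
      rw [hR]
      have : ∀ Q : W.Point, Q + P₁ + (Q + P₁) = Q + Q + (P₁ + P₁) := fun Q => by abel
      rw [this, h0]
      simp
    · obtain ⟨R, e2⟩ := half_of_sq hv0 h''
      refine ⟨R, Or.inr ?_⟩
      rw [hR, e2]
      abel

lemma good_of_add_T {x y : ℚ} (hx : x ≠ 0) (h : W.Nonsingular x y)
    (H : ∀ (y' : ℚ) (h' : W.Nonsingular (-2 / x) y'), Good (Point.some _ y' h')) :
    Good (Point.some x y h) := by
  obtain ⟨y', h', e⟩ := add_x h ns_T hx
  have he := (ns_iff _ _).1 h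
  have hx3 : ((y - 0) / (x - 0)) ^ 2 - x - 0 = -2 / x := by
    simp only [sub_zero]
    field_simp
    linear_combination he
  obtain ⟨h'', e'⟩ := some_congr h' hx3
  rw [e'] at e
  obtain ⟨R, hR⟩ := H y' h''
  have h0 := dbl_zero ns_T rfl
  have h1 : Point.some x y h + Point.some x y h =
      Point.some _ y' h'' + Point.some _ y' h'' := by
    rw [← e]
    have : ∀ Q T : W.Point, Q + T + (Q + T) = Q + Q + (T + T) := fun Q T => by abel
    rw [this, h0, add_zero]
  exact ⟨R, by rw [h1]; exact hR⟩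

lemma good_all (R : W.Point) : Good R := by
  rcases R with _ | ⟨x, y, h⟩
  · exact ⟨0, Or.inl (by simp [← Point.zero_def])⟩
  · have he := (ns_iff _ _).1 h
    by_cases hx : x = 0
    · have hy : y = 0 := by
        rw [hx] at he
        simpa using he
      exact ⟨0, Or.inl (by rw [dbl_zero h hy]; simp)⟩
    · obtain ⟨w, hw0, hw⟩ := sqclass x y (-2) (by norm_num) hx (by push_cast; linear_combination -he)
      rcases hw with hw | hw | hw | hw
      · subst hw; exact good_sq hw0 h
      · subst hw; exact good_neg_sq hw0 h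
      · refine good_of_add_T hx h fun y' h' => ?_
        have : -2 / x = -(w⁻¹) ^ 2 := by rw [hw]; field_simp
        obtain ⟨h'', e⟩ := some_congr h' this
        rw [e]
        exact good_neg_sq (inv_ne_zero hw0) h''
      · refine good_of_add_T hx h fun y' h' => ?_
        have : -2 / x = (w⁻¹) ^ 2 := by rw [hw]; field_simp
        obtain ⟨h'', e⟩ := some_congr h' this
        rw [e]
        exact good_sq (inv_ne_zero hw0) h''

end H5

open H5 in
theorem t_cos : T_cos := by
  intro _
  refine ⟨P₁ + P₁, ⟨P₁, rfl⟩, ?_, good_all⟩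
  obtain ⟨y', h', e⟩ := dbl_x ns_P one_ne_zero
  rw [P₁, e]
  exact Point.some_ne_zero _

end Crest.Agent.H4.SD
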