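import Crest.Agent.H4.SF.Defs

/-! The Chinese remainder coding of a bounded universal quantifier. -/

set_option autoImplicit false

namespace Crest.Agent.H4.SD

namespace Crtx

theorem exists_mod {p z u : ℕ} (hp : p.Prime) (h : p ∣ z.descFactorial u) :
    ∃ w, w < u ∧ z ≡ w [MOD p] := by
  rw [Nat.descFactorial_eq_prod_range, hp.prime.dvd_finsetProd_iff] at h
  obtain ⟨j, hj, h⟩ := h
  rw [Finset.mem_range] at hj
  rcases le_total j z with h' | h'
  exacts [⟨j, hj, ((Nat.modEq_iff_dvd' h').2 h).symm⟩, ⟨z, by omega, rfl⟩]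

theorem dvd_desc {m z w u : ℕ} (hw : w < u) (h : z ≡ w [MOD m]) : m ∣ z.descFactorial u := by
  rcases le_or_gt w z with h' | h'
  · rw [Nat.descFactorial_eq_prod_range]
    exact ((Nat.modEq_iff_dvd' h').1 h.symm).trans
      (Finset.dvd_prod_of_mem (fun i => z - i) (Finset.mem_range.2 hw))
  · rw [Nat.descFactorial_of_lt (by omega)]; exact dvd_zero _

theorem modEq_of {m z w u : ℕ} (hm : m ≠ 1) (hw : w < u) (h : m ∣ z.descFactorial u)
    (hp : ∀ p, p.Prime → p ∣ m → u < p ∧ z ≡ w [MOD p]) : z ≡ w [MOD m] := by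
  rcases lt_or_ge z u with hz | hz
  · obtain ⟨p, h1, h2⟩ := Nat.exists_prime_and_dvd hm
    obtain ⟨h3, h4⟩ := hp p h1 h2
    rw [Nat.ModEq.eq_of_lt_of_lt h4 (by omega) (by omega)]
  · rw [Nat.descFactorial_eq_prod_range, ← Finset.mul_prod_erase _ _ (Finset.mem_range.2 hw)] at h
    refine ((Nat.modEq_iff_dvd' (by omega)).2 (Nat.Coprime.dvd_of_dvd_mul_right ?_ h)).symm
    refine Nat.Coprime.prod_right fun j hj => Nat.coprime_of_dvd fun p h1 h2 h3 => ?_
    obtain ⟨h4, h5⟩ := hp p h1 h2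
    rw [Finset.mem_erase, Finset.mem_range] at hj
    exact hj.1 (Nat.ModEq.eq_of_lt_of_lt (((Nat.modEq_iff_dvd' (by omega)).2 h3).trans h5)
      (by omega) (by omega))

theorem moduli (n r q : ℕ) (hr : n + 3 ≤ r) (hq : q = n.factorial * r.factorial - 1) :
    ∃ m : ℕ → ℕ, q.choose n = ∏ i ∈ Finset.range n, m i ∧
      (∀ i, i < n → 1 < m i ∧ q ≡ i [MOD m i] ∧ ∀ p, p.Prime → p ∣ m i → r < p) ∧
      ∀ i, i < n → ∀ j, j < n → i ≠ j → (m i).Coprime (m j) := by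
  have h1 : ∀ i, i < n → ∃ c, 0 < c ∧ n.factorial = (i + 1) * c := fun i hi => by
    obtain ⟨c, hc⟩ := Nat.dvd_factorial (Nat.succ_pos i) hi
    exact ⟨c, Nat.pos_of_ne_zero fun h => n.factorial_ne_zero (by rw [hc, h, mul_zero]), hc⟩
  choose! c hc0 hc using h1
  have hr' := r.self_le_factorial
  have k0 : ∀ i, i < n → r ≤ c i * r.factorial := fun i hi =>
    hr'.trans (Nat.le_mul_of_pos_left _ (hc0 i hi))
  have k1 : ∀ i, i < n → q - i = (i + 1) * (c i * r.factorial - 1) := fun i hi => by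
    rw [hq, Nat.mul_sub, ← mul_assoc, ← hc i hi, mul_one, Nat.sub_sub, add_comm]
  have k2 : ∀ i, i < n → i ≤ q := fun i hi => by
    have := Nat.le_mul_of_pos_left r.factorial n.factorial_pos
    omega
  have k3 : ∀ i, i < n → ∀ p, p.Prime → p ∣ c i * r.factorial - 1 → r < p := fun i hi p hp h => by
    by_contra h'
    have h2 : p ∣ c i * r.factorial := (hp.dvd_factorial.2 (not_lt.1 h')).mul_left _
    have h3 := (Nat.dvd_sub_iff_right (by have := k0 i hi; omega) h2).1 h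
    exact hp.one_lt.ne' (Nat.dvd_one.1 h3)
  refine ⟨fun i => c i * r.factorial - 1, ?_, fun i hi => ⟨by have := k0 i hi; beta_reduce; omega,
    ((Nat.modEq_iff_dvd' (k2 i hi)).2 (k1 i hi ▸ Dvd.intro_left _ rfl)).symm, k3 i hi⟩,
    fun i hi j hj hij => Nat.coprime_of_dvd fun p hp h1 h2 => ?_⟩
  · refine Nat.eq_of_mul_eq_mul_left n.factorial_pos ?_
    rw [← Nat.descFactorial_eq_factorial_mul_choose, Nat.descFactorial_eq_prod_range,
      Nat.factorial_eq_prod_range_add_one n, ← Finset.prod_mul_distrib]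
    exact Finset.prod_congr rfl fun i hi => k1 i (Finset.mem_range.1 hi)
  · have a1 : i ≡ q [MOD p] := (Nat.modEq_iff_dvd' (k2 i hi)).2 (k1 i hi ▸ h1.mul_left _)
    have a2 : j ≡ q [MOD p] := (Nat.modEq_iff_dvd' (k2 j hj)).2 (k1 j hj ▸ h2.mul_left _)
    have := k3 i hi p hp h1
    exact hij (Nat.ModEq.eq_of_lt_of_lt (a1.trans a2.symm) (by omega) (by omega))

end Crtx

open Crtx in
theorem t_crt : T_crt := by
  intro β _ n u B P hP hB hU q M Φ hq hM hΦ
  obtain ⟨m, hm, h1, h2⟩ := moduli n (B + u + n + 3) q (by omega) hq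
  rw [← hM] at hm
  have hmM : ∀ i, i < n → m i ∣ M := fun i hi =>
    hm ▸ Finset.dvd_prod_of_mem m (Finset.mem_range.2 hi)
  have hprod : ∀ x : ℤ, (∀ i, i < n → (m i : ℤ) ∣ x) → (M : ℤ) ∣ x := fun x hx => by
    rw [hm, Nat.cast_prod]
    exact Finset.prod_dvd_of_coprime (fun i hi j hj hij => Nat.isCoprime_iff_coprime.2
      (h2 i (by simpa using hi) j (by simpa using hj) hij)) fun i hi => hx i (Finset.mem_range.1 hi)
  have hprod' : ∀ x : ℕ, (∀ i, i < n → m i ∣ x) → M ∣ x := fun x hx => by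
    exact_mod_cast hprod x fun i hi => by exact_mod_cast hx i hi
  have kA : ∀ z, (M : ℤ) ∣ P q z → ∀ u', u' ≤ u → (∀ k, M ∣ (z k).descFactorial u') → ∀ i, i < n →
      ∀ p, p.Prime → p ∣ m i → ∃ w, (∀ k, w k < u' ∧ z k ≡ w k [MOD p]) ∧ P i w = 0 := by
    intro z hz u' hu hd i hi p hp hpm
    choose w hw using fun k => exists_mod hp (hpm.trans ((hmM i hi).trans (hd k)))
    refine ⟨w, hw, ?_⟩
    have a1 := hP p q i z w ((h1 i hi).2.1.of_dvd hpm) fun k => (hw k).2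
    have a2 : (p : ℤ) ∣ P q z := (Int.natCast_dvd_natCast.2 (hpm.trans (hmM i hi))).trans hz
    have a3 := hB i hi w fun k => (hw k).1.trans_le hu
    have a4 := (h1 i hi).2.2 p hp hpm
    refine Int.eq_zero_of_abs_lt_dvd ((Int.ModEq.dvd_iff a1).1 a2) ?_
    omega
  have kA' : ∀ z, (M : ℤ) ∣ P q z → ∀ u', u' ≤ u → (∀ k, M ∣ (z k).descFactorial u') → ∀ i, i < n →
      ∃ w, (∀ k, w k < u') ∧ P i w = 0 := by
    intro z hz u' hu hd i hi
    obtain ⟨p, hp, hpm⟩ := Nat.exists_prime_and_dvd (h1 i hi).1.ne'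
    obtain ⟨w, hw, h⟩ := kA z hz u' hu hd i hi p hp hpm
    exact ⟨w, fun k => (hw k).1, h⟩
  have kB : ∀ z, Φ z → ∀ i, i < n → ∀ w, P i w = 0 → ∀ k, z k ≡ w k [MOD m i] := by
    intro z hz i hi w hw k
    obtain ⟨hz1, hz2⟩ := (hΦ z).1 hz
    obtain ⟨w', hw', h'⟩ := kA' z hz2 u le_rfl (fun k => (hz1 k).2) i hi
    obtain rfl := hU i hi w w' hw h'
    refine modEq_of (h1 i hi).1.ne' (hw' k) ((hmM i hi).trans (hz1 k).2) fun p hp hpm => ?_
    obtain ⟨w', hw', h'⟩ := kA z hz2 u le_rfl (fun k => (hz1 k).2) i hi p hp hpm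
    obtain rfl := hU i hi w w' hw h'
    exact ⟨by have := (h1 i hi).2.2 p hp hpm; omega, (hw' k).2⟩
  refine ⟨⟨fun h => ?_, fun ⟨z, hz⟩ => kA' z ((hΦ z).1 hz).2 u le_rfl
    fun k => (((hΦ z).1 hz).1 k).2⟩, fun z z' hz hz' => funext fun k => ?_,
    fun z hz u' hu => ⟨fun h i hi w hw => ?_, fun h k => hprod' _ fun i hi => ?_⟩⟩
  · choose! w hw hw' using h
    have s1 : ∀ i ∈ Finset.range n, m i ≠ 0 := fun i hi => by
      have := (h1 i (Finset.mem_range.1 hi)).1; omega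
    have s2 : Set.Pairwise (Finset.range n : Set ℕ) (Function.onFun Nat.Coprime m) :=
      fun i hi j hj hij => h2 i (by simpa using hi) j (by simpa using hj) hij
    let z : β → ℕ := fun k => Nat.chineseRemainderOfFinset (fun i => w i k) m _ s1 s2
    have hz : ∀ k i, i < n → z k ≡ w i k [MOD m i] := fun k i hi =>
      (Nat.chineseRemainderOfFinset (fun i => w i k) m _ s1 s2).2 i (Finset.mem_range.2 hi)
    refine ⟨z, (hΦ z).2 ⟨fun k => ⟨hm ▸ Nat.chineseRemainderOfFinset_lt_prod _ _ s1 s2,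
      hprod' _ fun i hi => dvd_desc (hw i hi k) (hz k i hi)⟩, hprod _ fun i hi => ?_⟩⟩
    have := hP (m i) q i z (w i) (h1 i hi).2.1 fun k => hz k i hi
    rw [hw' i hi] at this
    exact (Int.modEq_zero_iff_dvd).1 this
  · refine Nat.ModEq.eq_of_lt_of_lt (Nat.modEq_iff_dvd.2 (hprod _ fun i hi => ?_))
      (((hΦ z).1 hz).1 k).1 (((hΦ z').1 hz').1 k).1
    obtain ⟨w, -, hw⟩ := kA' z ((hΦ z).1 hz).2 u le_rfl (fun k => (((hΦ z).1 hz).1 k).2) i hi
    exact Nat.modEq_iff_dvd.1 ((kB z hz i hi w hw k).trans (kB z' hz' i hi w hw k).symm)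
  · obtain ⟨w', hw', h'⟩ := kA' z ((hΦ z).1 hz).2 u' hu h i hi
    rwa [hU i hi w w' hw h']
  · obtain ⟨w, -, hw⟩ := kA' z ((hΦ z).1 hz).2 u le_rfl (fun k => (((hΦ z).1 hz).1 k).2) i hi
    exact dvd_desc (h i hi w hw k) (kB z hz i hi w hw k)

end Crest.Agent.H4.SD
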