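import Crest.Agent.H4.SF.Defs

/-! Tasks `dbl` and `par` of the S0500 plan. -/

set_option autoImplicit false

namespace Crest.Agent.H4.SD

open WeierstrassCurve.Affine

namespace DP

lemma eqn {x y : ℚ} (h : W.Nonsingular x y) : y ^ 2 = x ^ 3 - 2 * x := by
  have := (W.equation_iff x y).1 h.1
  simp only [W] at this
  linarith

lemma negY_eq (x y : ℚ) : W.negY x y = -y := by
  simp [W, negY]

lemma addX_eq (x₁ x₂ l : ℚ) : W.addX x₁ x₂ l = l ^ 2 - x₁ - x₂ := by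
  simp [W, addX]

/-- a rational whose square is an integer is an integer -/
lemma nat_of_sq {s : ℚ} {n : ℤ} (h : s ^ 2 = n) : ∃ m : ℕ, (m : ℚ) = |s| := by
  have hd : s.den = 1 := by
    have h1 : (s ^ 2).den = 1 := by rw [h]; simp
    rw [Rat.den_pow] at h1
    exact (Nat.pow_eq_one.1 h1).elim id (fun h => by omega)
  refine ⟨s.num.natAbs, ?_⟩
  have : (s.num : ℚ) = s := Rat.coe_int_num_of_den_eq_one hd
  rw [← this]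
  simp

lemma exists_s {A D : ℕ} {y : ℚ} (hA : 0 < A) (hD : 0 < D)
    (h : W.Nonsingular (((A : ℚ) / D) ^ 2) y) :
    ∃ s : ℕ, s ^ 2 + 2 * D ^ 4 = A ^ 4 ∧ (s : ℚ) = |y * D ^ 3 / A| := by
  have e := eqn h
  have hA' : (A : ℚ) ≠ 0 := by positivity
  have hD' : (D : ℚ) ≠ 0 := by positivity
  have h2 : (y * D ^ 3 / A) ^ 2 = (((A : ℤ) ^ 4 - 2 * (D : ℤ) ^ 4 : ℤ) : ℚ) := by
    push_cast
    rw [div_pow, mul_pow, e]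
    field_simp
  obtain ⟨s, hs⟩ := nat_of_sq h2
  refine ⟨s, ?_, hs⟩
  have : ((s ^ 2 + 2 * D ^ 4 : ℕ) : ℚ) = ((A ^ 4 : ℕ) : ℚ) := by
    push_cast
    rw [hs, sq_abs, h2]
    push_cast
    ring
  exact_mod_cast this

lemma odd_of {A D s : ℕ} (hc : A.Coprime D) (h : s ^ 2 + 2 * D ^ 4 = A ^ 4) : ¬ 2 ∣ A := by
  rintro ⟨a, rfl⟩
  have h1 : 2 ∣ s ^ 2 := by
    have : s ^ 2 + 2 * D ^ 4 = 2 * (8 * a ^ 4) := by rw [h]; ring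
    omega
  obtain ⟨b, rfl⟩ := Nat.prime_two.dvd_of_dvd_pow h1
  have h2 : 2 ∣ D ^ 4 := by
    have e1 : (2 * b) ^ 2 = 4 * b ^ 2 := by ring
    have e2 : (2 * a) ^ 4 = 16 * a ^ 4 := by ring
    rw [e1, e2] at h
    omega
  have h3 := Nat.prime_two.dvd_of_dvd_pow h2
  have := Nat.dvd_gcd (Dvd.intro a rfl) h3
  rw [hc.gcd_eq_one] at this
  omega

lemma cop {A D s : ℕ} (hc : A.Coprime D) (h : s ^ 2 + 2 * D ^ 4 = A ^ 4) :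
    (A ^ 4 + 2 * D ^ 4).Coprime (2 * A * D * s) := by
  have ho := odd_of hc h
  apply Nat.Coprime.symm
  rw [Nat.Coprime, Nat.eq_one_iff_not_exists_prime_dvd]
  intro p hp hd
  have h1 : p ∣ 2 * A * D * s := hd.trans (Nat.gcd_dvd_left _ _)
  have h2 : p ∣ A ^ 4 + 2 * D ^ 4 := hd.trans (Nat.gcd_dvd_right _ _)
  have hAD : p ∣ A → p ∣ D → False := fun a b => by
    have := Nat.dvd_gcd a b
    rw [hc.gcd_eq_one] at this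
    exact hp.one_lt.ne' (Nat.dvd_one.1 this)
  have h2' : ¬ p ∣ 2 := fun hp2 => by
    have : p = 2 := (Nat.prime_dvd_prime_iff_eq hp Nat.prime_two).1 hp2
    subst this
    have : 2 ∣ A ^ 4 := (Nat.dvd_add_left (Dvd.intro _ rfl)).1 h2
    exact ho (Nat.prime_two.dvd_of_dvd_pow this)
  have hA : ¬ p ∣ A := fun a => by
    have : p ∣ 2 * D ^ 4 := (Nat.dvd_add_right (Dvd.dvd.pow a (by norm_num))).1 h2
    rcases (Nat.Prime.dvd_mul hp).1 this with b | b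
    · exact h2' b
    · exact hAD a (hp.dvd_of_dvd_pow b)
  rcases (Nat.Prime.dvd_mul hp).1 h1 with h3 | h3
  · rcases (Nat.Prime.dvd_mul hp).1 h3 with h4 | h4
    · rcases (Nat.Prime.dvd_mul hp).1 h4 with h5 | h5
      · exact h2' h5
      · exact hA h5
    · have : p ∣ 2 * D ^ 4 := Dvd.dvd.mul_left (Dvd.dvd.pow h4 (by norm_num)) _
      exact hA (hp.dvd_of_dvd_pow ((Nat.dvd_add_left this).1 h2))
  · have h4 : p ∣ s ^ 2 + (A ^ 4 + 2 * D ^ 4) := Nat.dvd_add (Dvd.dvd.pow h3 (by norm_num)) h2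
    have e : s ^ 2 + (A ^ 4 + 2 * D ^ 4) = 2 * A ^ 4 := by omega
    rw [e] at h4
    rcases (Nat.Prime.dvd_mul hp).1 h4 with b | b
    · exact h2' b
    · exact hA (hp.dvd_of_dvd_pow b)

lemma cd_of {x y : ℚ} (h : W.Nonsingular x y) {A D : ℕ} (hA : 0 < A) (hD : 0 < D)
    (hc : A.Coprime D) (hx : x = ((A : ℚ) / D) ^ 2) : Cd (.some x y h) A D := by
  subst hx
  exact ⟨hA, hD, hc, y, h, rfl⟩

lemma key {A₃ D₃ A₄ D₄ N : ℕ} (h₃ : A₃.Coprime D₃) (h₄ : A₄.Coprime D₄)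
    (a : (A₃ * A₄) ^ 2 ∣ N ^ 2 * (D₃ ^ 2 * D₄ ^ 2))
    (b : (A₃ * A₄) ^ 2 ∣ N ^ 2 * (A₃ ^ 2 * D₄ ^ 2 + A₄ ^ 2 * D₃ ^ 2)) : A₃ * A₄ ∣ N := by
  have h1 := Nat.dvd_gcd a b
  rw [Nat.gcd_mul_left] at h1
  have hc : ((A₃ * A₄) ^ 2).Coprime
      (Nat.gcd (D₃ ^ 2 * D₄ ^ 2) (A₃ ^ 2 * D₄ ^ 2 + A₄ ^ 2 * D₃ ^ 2)) := by
    rw [Nat.Coprime, Nat.eq_one_iff_not_exists_prime_dvd]
    intro p hp hd
    have e1 : p ∣ (A₃ * A₄) ^ 2 := hd.trans (Nat.gcd_dvd_left _ _)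
    have e2 := hd.trans (Nat.gcd_dvd_right _ _)
    have e3 : p ∣ D₃ ^ 2 * D₄ ^ 2 := e2.trans (Nat.gcd_dvd_left _ _)
    have e4 : p ∣ A₃ ^ 2 * D₄ ^ 2 + A₄ ^ 2 * D₃ ^ 2 := e2.trans (Nat.gcd_dvd_right _ _)
    have c3 : p ∣ A₃ → p ∣ D₃ → False := fun a b => by
      have := Nat.dvd_gcd a b
      rw [h₃.gcd_eq_one] at this
      exact hp.one_lt.ne' (Nat.dvd_one.1 this)
    have c4 : p ∣ A₄ → p ∣ D₄ → False := fun a b => by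
      have := Nat.dvd_gcd a b
      rw [h₄.gcd_eq_one] at this
      exact hp.one_lt.ne' (Nat.dvd_one.1 this)
    have e5 : p ∣ D₃ ∨ p ∣ D₄ := by
      rcases (Nat.Prime.dvd_mul hp).1 e3 with b | b
      · exact Or.inl (hp.dvd_of_dvd_pow b)
      · exact Or.inr (hp.dvd_of_dvd_pow b)
    rcases (Nat.Prime.dvd_mul hp).1 (hp.dvd_of_dvd_pow e1) with a3 | a4
    · have : p ∣ A₄ ^ 2 * D₃ ^ 2 :=
        (Nat.dvd_add_right (Dvd.dvd.mul_right (Dvd.dvd.pow a3 (by norm_num)) _)).1 e4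
      rcases (Nat.Prime.dvd_mul hp).1 this with b | b
      · rcases e5 with c | c
        · exact c3 a3 c
        · exact c4 (hp.dvd_of_dvd_pow b) c
      · exact c3 a3 (hp.dvd_of_dvd_pow b)
    · have : p ∣ A₃ ^ 2 * D₄ ^ 2 :=
        (Nat.dvd_add_left (Dvd.dvd.mul_right (Dvd.dvd.pow a4 (by norm_num)) _)).1 e4
      rcases (Nat.Prime.dvd_mul hp).1 this with b | b
      · rcases e5 with c | c
        · exact c3 (hp.dvd_of_dvd_pow b) c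
        · exact c4 a4 c
      · exact c4 a4 (hp.dvd_of_dvd_pow b)
  have h2 : (A₃ * A₄) ^ 2 ∣ N ^ 2 := hc.dvd_of_dvd_mul_right h1
  exact (Nat.pow_dvd_pow_iff (by norm_num)).1 h2

end DP

open DP

theorem t_dbl : T_dbl := by
  rintro P A D ⟨hA, hD, hc, y, h, rfl⟩
  obtain ⟨s, hs, hsy⟩ := exists_s hA hD h
  have ho := odd_of hc hs
  have hD4 : 1 ≤ D ^ 4 := Nat.one_le_pow _ _ hD
  have hA' : (A : ℚ) ≠ 0 := by positivity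
  have hD' : (D : ℚ) ≠ 0 := by positivity
  have hs0 : 0 < s := by
    rcases Nat.eq_zero_or_pos s with h0 | h0
    · subst h0
      exact absurd (Nat.prime_two.dvd_of_dvd_pow (n := 4) ⟨D ^ 4, by omega⟩) ho
    · exact h0
  have hy : y ≠ 0 := by
    rintro rfl
    have : (s : ℚ) = 0 := by rw [hsy]; simp
    have : s = 0 := by exact_mod_cast this
    omega
  refine ⟨?_, by omega, 2 * A * D * s, ?_⟩
  · by_contra hlt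
    have : A = 1 := by omega
    subst this
    omega
  · have hne : y ≠ W.negY (((A : ℚ) / D) ^ 2) y := by
      rw [negY_eq]
      intro e
      apply hy
      linarith
    rw [Point.add_self_of_Y_ne hne]
    apply cd_of _ (by positivity) (by positivity) (cop hc hs)
    rw [addX_eq, slope_of_Y_ne rfl hne, negY_eq]
    have e := eqn h
    have hs2 : (s : ℚ) ^ 2 = (y * D ^ 3 / A) ^ 2 := by rw [hsy, sq_abs]
    push_cast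
    rw [div_pow (((A : ℚ) ^ 4 + 2 * D ^ 4)), mul_pow _ (s : ℚ), hs2]
    simp only [W]
    set x : ℚ := ((A : ℚ) / D) ^ 2 with hx
    have hx2 : (A : ℚ) ^ 4 + 2 * D ^ 4 = (x ^ 2 + 2) * D ^ 4 := by rw [hx]; field_simp
    rw [hx2]
    have : y - -y = 2 * y := by ring
    rw [this]
    field_simp
    linear_combination (-8 * x) * e

theorem t_par : T_par := by
  intro P Q A₁ D₁ A₂ D₂ A₃ D₃ A₄ D₄ c₁ c₂ c₃ c₄
  have b₁ := (t_dbl _ _ _ c₁).2.1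
  have b₂ := (t_dbl _ _ _ c₂).2.1
  obtain ⟨hA₁, hD₁, hc₁, y₁, h₁, rfl⟩ := c₁
  obtain ⟨hA₂, hD₂, hc₂, y₂, h₂, rfl⟩ := c₂
  obtain ⟨hA₃, hD₃, hc₃, y₃, h₃, e₃⟩ := c₃
  obtain ⟨hA₄, hD₄, hc₄, y₄, h₄, e₄⟩ := c₄
  have hx : ((A₁ : ℚ) / D₁) ^ 2 ≠ ((A₂ : ℚ) / D₂) ^ 2 := by
    intro e
    rcases (Point.X_eq_iff (h₁ := h₁) (h₂ := h₂)).1 e with e' | e'
    · rw [e', sub_self] at e₄
      exact Point.some_ne_zero _ e₄.symm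
    · rw [e', neg_add_cancel] at e₃
      exact Point.some_ne_zero _ e₃.symm
  rw [Point.add_of_X_ne hx] at e₃
  rw [sub_eq_add_neg, Point.neg_some, Point.add_of_X_ne hx] at e₄
  have x₃ := (Point.some.inj e₃).1
  have x₄ := (Point.some.inj e₄).1
  rw [addX_eq, slope_of_X_ne hx] at x₃ x₄
  rw [negY_eq] at x₄
  have q₁ := eqn h₁
  have q₂ := eqn h₂
  set u : ℚ := ((A₁ : ℚ) / D₁) ^ 2 with hu
  set v : ℚ := ((A₂ : ℚ) / D₂) ^ 2 with hv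
  have huv : u - v ≠ 0 := sub_ne_zero.2 hx
  have r₃ : ((A₃ : ℚ) / D₃) ^ 2 * (u - v) ^ 2 = (y₁ - y₂) ^ 2 - (u + v) * (u - v) ^ 2 := by
    rw [← x₃]
    field_simp
    ring
  have r₄ : ((A₄ : ℚ) / D₄) ^ 2 * (u - v) ^ 2 = (y₁ + y₂) ^ 2 - (u + v) * (u - v) ^ 2 := by
    rw [← x₄]
    field_simp
    ring
  have p1 : ((A₃ : ℚ) / D₃) ^ 2 * ((A₄ : ℚ) / D₄) ^ 2 * (u - v) ^ 2 = (u * v + 2) ^ 2 := by
    apply mul_right_cancel₀ (pow_ne_zero 2 huv)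
    have : ((A₃ : ℚ) / D₃) ^ 2 * ((A₄ : ℚ) / D₄) ^ 2 * (u - v) ^ 2 * (u - v) ^ 2 =
        (y₁ ^ 2 - y₂ ^ 2) ^ 2 - 2 * (u + v) * (u - v) ^ 2 * (y₁ ^ 2 + y₂ ^ 2) +
          (u + v) ^ 2 * (u - v) ^ 4 := by
      calc _ = (((A₃ : ℚ) / D₃) ^ 2 * (u - v) ^ 2) * (((A₄ : ℚ) / D₄) ^ 2 * (u - v) ^ 2) := by ring
        _ = _ := by rw [r₃, r₄]; ring
    rw [this, q₁, q₂]
    ring
  have p2 : (((A₃ : ℚ) / D₃) ^ 2 + ((A₄ : ℚ) / D₄) ^ 2) * (u - v) ^ 2 =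
      2 * (u + v) * (u * v - 2) := by
    rw [add_mul, r₃, r₄]
    linear_combination 2 * q₁ + 2 * q₂
  have n₁ : (D₁ : ℚ) ≠ 0 := by positivity
  have n₂ : (D₂ : ℚ) ≠ 0 := by positivity
  have n₃ : (D₃ : ℚ) ≠ 0 := by positivity
  have n₄ : (D₄ : ℚ) ≠ 0 := by positivity
  set U : ℤ := (A₁ : ℤ) ^ 2 * D₂ ^ 2 - (A₂ : ℤ) ^ 2 * D₁ ^ 2 with hU
  set N : ℕ := A₁ ^ 2 * A₂ ^ 2 + 2 * D₁ ^ 2 * D₂ ^ 2 with hN
  set V : ℤ := 2 * ((A₁ : ℤ) ^ 2 * D₂ ^ 2 + (A₂ : ℤ) ^ 2 * D₁ ^ 2) *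
    ((A₁ : ℤ) ^ 2 * A₂ ^ 2 - 2 * (D₁ : ℤ) ^ 2 * D₂ ^ 2) with hV
  have hUq : (U : ℚ) = (u - v) * (D₁ ^ 2 * D₂ ^ 2) := by
    rw [hU, hu, hv]; push_cast; field_simp
  have hNq : (N : ℚ) = (u * v + 2) * (D₁ ^ 2 * D₂ ^ 2) := by
    rw [hN, hu, hv]; push_cast; field_simp
  have hVq : (V : ℚ) = 2 * (u + v) * (u * v - 2) * (D₁ ^ 2 * D₂ ^ 2) ^ 2 := by
    rw [hV, hu, hv]; push_cast; field_simp
  have hU0 : U ≠ 0 := by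
    intro h0
    rw [h0] at hUq
    have : (u - v) * ((D₁ : ℚ) ^ 2 * D₂ ^ 2) ≠ 0 := by positivity
    exact this (by rw [← hUq]; simp)
  have i1 : (((A₃ * A₄) ^ 2 : ℕ) : ℤ) * U ^ 2 = ((N ^ 2 * (D₃ ^ 2 * D₄ ^ 2) : ℕ) : ℤ) := by
    have : ((((A₃ * A₄) ^ 2 : ℕ) : ℤ) * U ^ 2 : ℤ) = (((N ^ 2 * (D₃ ^ 2 * D₄ ^ 2) : ℕ) : ℤ) : ℚ) := by
      push_cast
      rw [hUq, hNq, mul_pow (u * v + 2), ← p1]
      field_simp
    exact_mod_cast this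
  have i2 : ((A₃ ^ 2 * D₄ ^ 2 + A₄ ^ 2 * D₃ ^ 2 : ℕ) : ℤ) * U ^ 2 = V * (D₃ ^ 2 * D₄ ^ 2 : ℕ) := by
    have : ((((A₃ ^ 2 * D₄ ^ 2 + A₄ ^ 2 * D₃ ^ 2 : ℕ) : ℤ) * U ^ 2 : ℤ) : ℚ) =
        ((V * (D₃ ^ 2 * D₄ ^ 2 : ℕ) : ℤ) : ℚ) := by
      push_cast
      rw [hUq, hVq, ← p2]
      field_simp
    exact_mod_cast this
  have i3 : ((N ^ 2 * (A₃ ^ 2 * D₄ ^ 2 + A₄ ^ 2 * D₃ ^ 2) : ℕ) : ℤ) =
      (((A₃ * A₄) ^ 2 : ℕ) : ℤ) * V := by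
    apply mul_right_cancel₀ (pow_ne_zero 2 hU0)
    push_cast at i1 i2 ⊢
    linear_combination (N : ℤ) ^ 2 * i2 - V * i1
  have d1 : (A₃ * A₄) ^ 2 ∣ N ^ 2 * (D₃ ^ 2 * D₄ ^ 2) :=
    Int.natCast_dvd_natCast.1 ⟨_, i1.symm⟩
  have d2 : (A₃ * A₄) ^ 2 ∣ N ^ 2 * (A₃ ^ 2 * D₄ ^ 2 + A₄ ^ 2 * D₃ ^ 2) :=
    Int.natCast_dvd_natCast.1 ⟨_, i3⟩
  have d3 := key hc₃ hc₄ d1 d2
  have hNpos : 0 < N := by rw [hN]; positivity
  have l₁ : D₁ ≤ A₁ := by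
    by_contra hlt
    have := Nat.pow_lt_pow_left (not_le.1 hlt) (n := 4) (by norm_num)
    omega
  have l₂ : D₂ ≤ A₂ := by
    by_contra hlt
    have := Nat.pow_lt_pow_left (not_le.1 hlt) (n := 4) (by norm_num)
    omega
  have l₃ : D₁ ^ 2 * D₂ ^ 2 ≤ A₁ ^ 2 * A₂ ^ 2 :=
    Nat.mul_le_mul (Nat.pow_le_pow_left l₁ 2) (Nat.pow_le_pow_left l₂ 2)
  calc A₃ * A₄ ≤ N := Nat.le_of_dvd hNpos d3
    _ ≤ 3 * A₁ ^ 2 * A₂ ^ 2 := by rw [hN]; nlinarith [l₃]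

end Crest.Agent.H4.SD
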