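import Mathlib

/-! Statements for S0500 (single-fold Diophantine representations).
Proofs in words: `Plan.lean`; closure library: `Basic.lean`. -/

set_option autoImplicit false

namespace Crest.Agent.H4.SD

/-- single-fold Diophantine predicates -/
def SF {α : Type} (S : (α → ℕ) → Prop) : Prop :=
  ∃ (β : Type) (_ : Fintype β) (p : (α ⊕ β → ℕ) → ℤ), IsPoly p ∧ ∀ v,
    (S v ↔ ∃ t, p (Sum.elim v t) = 0) ∧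
      ∀ t t', p (Sum.elim v t) = 0 → p (Sum.elim v t') = 0 → t = t'

/-- functions with a single-fold graph -/
def SFn {α : Type} (f : (α → ℕ) → ℕ) : Prop :=
  SF fun w : Option α → ℕ => f (fun a => w (some a)) = w none

def SF1 (R : ℕ → Prop) : Prop :=
  ∀ {α : Type} {f : (α → ℕ) → ℕ}, SFn f → SF fun v => R (f v)

def SF2 (R : ℕ → ℕ → Prop) : Prop :=
  ∀ {α : Type} {f g : (α → ℕ) → ℕ}, SFn f → SFn g → SF fun v => R (f v) (g v)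

def SF3 (R : ℕ → ℕ → ℕ → Prop) : Prop :=
  ∀ {α : Type} {f g h : (α → ℕ) → ℕ}, SFn f → SFn g → SFn h → SF fun v => R (f v) (g v) (h v)

def SF4 (R : ℕ → ℕ → ℕ → ℕ → Prop) : Prop :=
  ∀ {α : Type} {f g h k : (α → ℕ) → ℕ}, SFn f → SFn g → SFn h → SFn k →
    SF fun v => R (f v) (g v) (h v) (k v)

def SF6 (R : ℕ → ℕ → ℕ → ℕ → ℕ → ℕ → Prop) : Prop :=
  ∀ {α : Type} {f g h k l m : (α → ℕ) → ℕ}, SFn f → SFn g → SFn h → SFn k → SFn l → SFn m →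
    SF fun v => R (f v) (g v) (h v) (k v) (l v) (m v)

def Fn1 (F : ℕ → ℕ) : Prop := ∀ {α : Type} {f : (α → ℕ) → ℕ}, SFn f → SFn fun v => F (f v)

def Fn2 (F : ℕ → ℕ → ℕ) : Prop :=
  ∀ {α : Type} {f g : (α → ℕ) → ℕ}, SFn f → SFn g → SFn fun v => F (f v) (g v)

/-- closure under bounded universal quantifiers -/
def Ball : Prop := ∀ {α : Type} {S : ℕ → (α → ℕ) → Prop} {f : (α → ℕ) → ℕ},
  SF (fun w : Option α → ℕ => S (w none) (fun a => w (some a))) → SFn f →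
    SF fun v => ∀ i, i < f v → S i v

/-- graph of a partial function -/
def Gr (F : ℕ →. ℕ) : Prop := SF2 fun x y => y ∈ F x

/-! ### the curve `y² = x³ - 2x` -/

def W : WeierstrassCurve.Affine ℚ := ⟨0, 0, 0, -2, 0⟩

/-- `x₁, x₂, x₃` are the abscissae of `P, Q, P ± Q` -/
def Tq (x₁ x₂ x₃ : ℚ) : ℚ :=
  (x₁ * x₂ + x₁ * x₃ + x₂ * x₃ + 2) ^ 2 - 4 * x₁ * x₂ * x₃ * (x₁ + x₂ + x₃)

/-- `P` has abscissa `(A/D)²` in lowest terms -/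
def Cd (P : W.Point) (A D : ℕ) : Prop :=
  0 < A ∧ 0 < D ∧ A.Coprime D ∧ ∃ (y : ℚ) (h : W.Nonsingular (((A : ℚ) / D) ^ 2) y),
    P = .some _ y h

def Sol (A D : ℕ) : Prop := 0 < D ∧ A.Coprime D ∧ ∃ s : ℕ, s ^ 2 + 2 * D ^ 4 = A ^ 4

/-- the sequence of multiples of a generator -/
structure Seq (a d : ℕ → ℕ) (l : ℝ) : Prop where
  three_le : 3 ≤ l
  sol : ∀ A D, Sol A D ↔ ∃ k, 1 ≤ k ∧ A = a k ∧ D = d k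
  le : ∀ k, 1 ≤ k → (a k : ℝ) ≤ l ^ (k ^ 2)
  ge : ∀ k, 1 ≤ k → l ^ (k ^ 2) ≤ 2 * (a k : ℝ)
  tq : ∀ i j k, 1 ≤ i → 1 ≤ j → 1 ≤ k →
    (Tq (((a i : ℚ) / d i) ^ 2) (((a j : ℚ) / d j) ^ 2) (((a k : ℚ) / d k) ^ 2) = 0 ↔
      (k = i + j ∨ i = j + k ∨ j = i + k))

def AddR (a d : ℕ → ℕ) (A₁ D₁ A₂ D₂ A₃ D₃ : ℕ) : Prop := ∃ i j, 1 ≤ i ∧ 1 ≤ j ∧
  A₁ = a i ∧ D₁ = d i ∧ A₂ = a j ∧ D₂ = d j ∧ A₃ = a (i + j) ∧ D₃ = d (i + j)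

def SqR (a d : ℕ → ℕ) (A D G E : ℕ) : Prop :=
  ∃ m, 1 ≤ m ∧ A = a m ∧ D = d m ∧ G = a (m ^ 2) ∧ E = d (m ^ 2)

def IdxR (a : ℕ → ℕ) (j A G : ℕ) : Prop := 2 ≤ j ∧ A = a j ∧ G = a (j ^ 2)

/-! ### tasks: the curve -/

def T_tq : Prop := ∀ (x₁ y₁ x₂ y₂ x₃ y₃ : ℚ) (h₁ : W.Nonsingular x₁ y₁) (h₂ : W.Nonsingular x₂ y₂)
  (h₃ : W.Nonsingular x₃ y₃) (P Q R : W.Point), P = .some _ _ h₁ → Q = .some _ _ h₂ →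
  R = .some _ _ h₃ →
  (Tq x₁ x₂ x₃ = 0 ↔ R = P + Q ∨ R = -(P + Q) ∨ R = P - Q ∨ R = -(P - Q))

def T_half : Prop := ∀ P : W.Point, (∃ R, P = R + R) ↔ (P = 0 ∨ ∃ A D, Cd P A D)

def T_cos : Prop := T_half → ∃ g : W.Point, (∃ R, g = R + R) ∧ g ≠ 0 ∧
  ∀ R : W.Point, ∃ R', R + R = (R' + R') + (R' + R') ∨ R + R = (R' + R') + (R' + R') + g

def T_dbl : Prop := ∀ (P : W.Point) (A D : ℕ), Cd P A D → 3 ≤ A ∧ 2 * D ^ 4 ≤ A ^ 4 ∧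
  ∃ D', Cd (P + P) (A ^ 4 + 2 * D ^ 4) D'

def T_par : Prop := ∀ (P Q : W.Point) (A₁ D₁ A₂ D₂ A₃ D₃ A₄ D₄ : ℕ), Cd P A₁ D₁ → Cd Q A₂ D₂ →
  Cd (P + Q) A₃ D₃ → Cd (P - Q) A₄ D₄ → A₃ * A₄ ≤ 3 * A₁ ^ 2 * A₂ ^ 2

def T_grp : Prop := ∀ (G : Type) [AddCommGroup G] (a : G → ℕ) (g₁ : G), a 0 = 1 →
  (∀ P, P ≠ 0 → 3 ≤ a P) → (∀ P, a P ^ 4 ≤ a (P + P) ∧ a (P + P) ≤ 2 * a P ^ 4) →
  (∀ P Q, a (P + Q) * a (P - Q) ≤ 3 * a P ^ 2 * a Q ^ 2) → (∀ B, {P | a P ≤ B}.Finite) →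
  (∀ P, ∃ R, P = R + R ∨ P = R + R + g₁) → g₁ ≠ 0 →
  ∃ (g : G) (l : ℝ), 3 ≤ l ∧ (∀ P, ∃ k : ℤ, P = k • g) ∧
    ∀ k : ℤ, (a (k • g) : ℝ) ≤ l ^ (k.natAbs ^ 2) ∧ l ^ (k.natAbs ^ 2) ≤ 2 * (a (k • g) : ℝ)

def T_seq : Prop := T_tq → T_half → T_cos → T_dbl → T_par → T_grp → ∃ a d l, Seq a d l

/-! ### tasks: exponentiation -/

def T_add : Prop := ∀ a d l, Seq a d l → SF2 Sol ∧ SF6 (AddR a d)

def T_sq : Prop := ∀ a d l, Seq a d l → SF2 Sol → SF6 (AddR a d) → SF4 (SqR a d)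

/-- the Pell facts used twice -/
def T_pell : Prop := ∀ a d l, Seq a d l → ∀ (m : ℕ), 2 ≤ m → ∃ h : 1 < a m,
  m ^ 2 + 2 < a m - 1 ∧ 2 ^ (m ^ 2) ≤ a m ∧ Pell.yn h (m ^ 2) ≤ 2 * a (m ^ 2) ∧
  a (m ^ 2) ≤ 4 * a m ^ 2 * Pell.yn h (m ^ 2) ∧
  (∀ N, Pell.yn h N ≤ 2 * a (m ^ 2) → N ≤ m ^ 2 + 2) ∧
  (∀ N, a (m ^ 2) ≤ 4 * a m ^ 2 * Pell.yn h N → m ^ 2 ≤ N + 2)

def T_idx : Prop := T_pell → ∀ a d l, Seq a d l → SF4 (SqR a d) → SF3 (IdxR a)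

def T_pow : Prop := T_pell → ∀ a d l, Seq a d l → SF3 (IdxR a) → Fn2 fun b n => b ^ n

/-! ### tasks: bounded quantifiers and recursion -/

def T_ch : Prop := (Fn2 fun b n => b ^ n) →
  Fn2 Nat.choose ∧ Fn1 Nat.factorial ∧ Fn2 Nat.descFactorial

def T_crt : Prop := ∀ (β : Type) [Fintype β] (n u B : ℕ) (P : ℕ → (β → ℕ) → ℤ),
  (∀ (m i i' : ℕ) (w w' : β → ℕ), i ≡ i' [MOD m] → (∀ k, w k ≡ w' k [MOD m]) →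
    P i w ≡ P i' w' [ZMOD m]) →
  (∀ i, i < n → ∀ w, (∀ k, w k < u) → |P i w| ≤ B) →
  (∀ i, i < n → ∀ w w', P i w = 0 → P i w' = 0 → w = w') →
  ∀ (q M : ℕ) (Φ : (β → ℕ) → Prop), q = n.factorial * (B + u + n + 3).factorial - 1 →
  M = q.choose n →
  (∀ z, Φ z ↔ (∀ k, z k < M ∧ M ∣ (z k).descFactorial u) ∧ (M : ℤ) ∣ P q z) →
  ((∀ i, i < n → ∃ w, (∀ k, w k < u) ∧ P i w = 0) ↔ ∃ z, Φ z) ∧
  (∀ z z', Φ z → Φ z' → z = z') ∧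
  ∀ z, Φ z → ∀ u', u' ≤ u → ((∀ k, M ∣ (z k).descFactorial u') ↔
    ∀ i, i < n → ∀ w, P i w = 0 → ∀ k, w k < u')

def T_ball : Prop := T_crt → Fn2 Nat.choose → Fn1 Nat.factorial → Fn2 Nat.descFactorial → Ball

def T_prec : Prop := (Fn2 fun b n => b ^ n) → Ball → ∀ f g : ℕ →. ℕ, Gr f → Gr g →
  Gr (Nat.unpaired fun a n =>
    n.rec (f a) fun y IH => do let i ← IH; g (Nat.pair a (Nat.pair y i)))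

def T_rec : Prop := T_prec → (Fn2 fun b n => b ^ n) → Ball → ∀ F : ℕ →. ℕ, Nat.Partrec F → Gr F

def T_fin : Prop := (∀ F : ℕ →. ℕ, Nat.Partrec F → Gr F) →
  ∀ (n : ℕ) (S : Set (Fin n → ℕ)), (REPred fun a => a ∈ S) →
  ∃ m : ℕ, 1 ≤ m ∧ ∃ P : MvPolynomial (Fin n ⊕ Fin m) ℤ, ∀ a : Fin n → ℕ,
    (a ∈ S → ∃! w : Fin m → ℕ,
      MvPolynomial.eval (Sum.elim (fun i => (a i : ℤ)) (fun j => (w j : ℤ))) P = 0) ∧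
    (a ∉ S → ∀ w : Fin m → ℕ,
      MvPolynomial.eval (Sum.elim (fun i => (a i : ℤ)) (fun j => (w j : ℤ))) P ≠ 0)

end Crest.Agent.H4.SD
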