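import Crest.Agent.H4.SF.Basic

/-! From graphs of partial recursive functions to the final statement. -/

set_option autoImplicit false

namespace Crest.Agent.H4.SD

namespace FINx

theorem mv {γ : Type} {p : (γ → ℕ) → ℤ} (hp : IsPoly p) :
    ∃ P : MvPolynomial γ ℤ, ∀ v, MvPolynomial.eval (fun c => (v c : ℤ)) P = p v := by
  induction hp with
  | proj i => exact ⟨MvPolynomial.X i, fun v => by simp⟩
  | const n => exact ⟨MvPolynomial.C n, fun v => by simp⟩
  | sub _ _ h1 h2 =>
    obtain ⟨P, hP⟩ := h1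
    obtain ⟨Q, hQ⟩ := h2
    exact ⟨P - Q, fun v => by simp [hP, hQ]⟩
  | mul _ _ h1 h2 =>
    obtain ⟨P, hP⟩ := h1
    obtain ⟨Q, hQ⟩ := h2
    exact ⟨P * Q, fun v => by simp [hP, hQ]⟩

theorem enc_list {α : Type} (l : List α) :
    SFn fun v : α → ℕ => Encodable.encode (l.map v) := by
  induction l with
  | nil => exact SFn.const 0
  | cons a l ih => exact ((SFn.proj a).pair ih).succ

theorem enc (n : ℕ) : SFn fun v : Fin n → ℕ =>
    @Encodable.encode (Fin n → ℕ) Primcodable.finArrow.toEncodable v :=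
  (enc_list (List.finRange n)).congr fun v => by
    rw [← List.ofFn_eq_map, ← List.Vector.toList_ofFn]; rfl

end FINx

theorem t_fin : T_fin := by
  intro h n S hS
  have h1 : SF fun a : Fin n → ℕ => a ∈ S ∧ True := by
    refine (h _ hS (FINx.enc n) (SFn.const 0)).congr fun a => ?_
    simp only [Encodable.encodek, Part.coe_some, Part.bind_some, Part.mem_map_iff,
      Part.mem_assert_iff, and_true]
    exact ⟨fun ⟨_, ⟨h, _⟩, _⟩ => h, fun h => ⟨(), ⟨h, Part.mem_some _⟩, rfl⟩⟩
  obtain ⟨β, _, p, hp, H⟩ := h1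
  let e : Option β ≃ Fin (Fintype.card (Option β)) := Fintype.equivFin _
  have hq : IsPoly fun w : Fin n ⊕ Fin (Fintype.card (Option β)) → ℕ =>
      (p fun c => w (Sum.map id (fun b => e (some b)) c)) *
      (p fun c => w (Sum.map id (fun b => e (some b)) c)) +
      (w (Sum.inr (e none)) : ℤ) * w (Sum.inr (e none)) :=
    poly_add ((poly_map hp _).mul (poly_map hp _)) ((IsPoly.proj _).mul (IsPoly.proj _))
  obtain ⟨P, hP⟩ := FINx.mv hq
  have key : ∀ (a : Fin n → ℕ) (w : Fin (Fintype.card (Option β)) → ℕ),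
      MvPolynomial.eval (Sum.elim (fun i => (a i : ℤ)) (fun j => (w j : ℤ))) P = 0 ↔
        p (Sum.elim a fun b => w (e (some b))) = 0 ∧ w (e none) = 0 := by
    intro a w
    have e1 : (Sum.elim (fun i => (a i : ℤ)) (fun j => (w j : ℤ))) =
        fun c => ((Sum.elim a w c : ℕ) : ℤ) := by funext c; cases c <;> rfl
    have e2 : (fun c => Sum.elim a w (Sum.map id (fun b => e (some b)) c)) =
        Sum.elim a fun b => w (e (some b)) := by funext c; cases c <;> rfl
    rw [e1, hP, e2, mul_self_add_mul_self_eq_zero]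
    simp
  refine ⟨Fintype.card (Option β), by simp, P, fun a => ⟨fun ha => ?_, fun ha w hw => ?_⟩⟩
  · obtain ⟨t, ht⟩ := (H a).1.1 ⟨ha, trivial⟩
    refine ⟨fun j => (e.symm j).elim 0 t, (key _ _).2 ⟨by simpa using ht, by simp⟩, fun w hw => ?_⟩
    obtain ⟨h2, h3⟩ := (key _ _).1 hw
    have h4 := (H a).2 _ _ h2 ht
    funext j
    obtain ⟨o, rfl⟩ := e.surjective j
    cases o with
    | none => simpa using h3
    | some b => simpa using congrFun h4 b
  · exact ha ((H a).1.2 ⟨_, ((key _ _).1 hw).1⟩).1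

end Crest.Agent.H4.SD
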