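import Crest.Agent.H4.SF.Defs

/-! The canonical height and cyclicity. -/

set_option autoImplicit false

namespace Crest.Agent.H4.SD

open Filter Topology

namespace Grpx

theorem exists_height {G : Type} [AddCommGroup G] (a : G → ℕ) (h1 : ∀ P, 1 ≤ a P)
    (h2 : ∀ P, a P ^ 4 ≤ a (P + P) ∧ a (P + P) ≤ 2 * a P ^ 4) : ∃ H : G → ℝ,
    (∀ P, Tendsto (fun k : ℕ => Real.log (a (2 ^ k • P)) / 4 ^ k) atTop (𝓝 (H P))) ∧
    ∀ P, Real.log (a P) ≤ H P ∧ H P ≤ Real.log (a P) + Real.log 2 := by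
  have hp : ∀ P, (0 : ℝ) < a P := fun P => by exact_mod_cast h1 P
  have l2 : 0 < Real.log 2 := Real.log_pos (by norm_num)
  have k1 : ∀ P, 4 * Real.log (a P) ≤ Real.log (a (P + P)) := fun P => by
    have := Real.log_le_log (pow_pos (hp P) 4) (show (a P : ℝ) ^ 4 ≤ a (P + P) by
      exact_mod_cast (h2 P).1)
    rwa [Real.log_pow] at this
  have k2 : ∀ P, Real.log (a (P + P)) ≤ Real.log 2 + 4 * Real.log (a P) := fun P => by
    have := Real.log_le_log (hp _) (show (a (P + P) : ℝ) ≤ 2 * (a P : ℝ) ^ 4 by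
      exact_mod_cast (h2 P).2)
    rwa [Real.log_mul (by norm_num) (pow_pos (hp P) 4).ne', Real.log_pow] at this
  have e : ∀ (k : ℕ) (P : G), 2 ^ (k + 1) • P = 2 ^ k • P + 2 ^ k • P := fun k P => by
    rw [pow_succ, mul_two, add_nsmul]
  have mono : ∀ P, Monotone fun k : ℕ => Real.log (a (2 ^ k • P)) / 4 ^ k := fun P =>
    monotone_nat_of_le_succ fun k => by
      rw [e, pow_succ (4 : ℝ), div_le_div_iff₀ (by positivity) (by positivity)]
      nlinarith [k1 (2 ^ k • P), pow_pos (show (0 : ℝ) < 4 by norm_num) k]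
  have bd : ∀ P (k : ℕ), Real.log (a (2 ^ k • P)) + Real.log 2 ≤
      4 ^ k * (Real.log (a P) + Real.log 2) := fun P k => by
    induction k with
    | zero => simp
    | succ k ih => rw [e, pow_succ (4 : ℝ)]; linarith [k2 (2 ^ k • P)]
  have bd' : ∀ P (k : ℕ), Real.log (a (2 ^ k • P)) / 4 ^ k ≤ Real.log (a P) + Real.log 2 :=
    fun P k => by rw [div_le_iff₀ (by positivity)]; linarith [bd P k]
  have bb : ∀ P, BddAbove (Set.range fun k : ℕ => Real.log (a (2 ^ k • P)) / 4 ^ k) := fun P =>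
    ⟨_, by rintro _ ⟨k, rfl⟩; exact bd' P k⟩
  refine ⟨fun P => ⨆ k : ℕ, Real.log (a (2 ^ k • P)) / 4 ^ k,
    fun P => tendsto_atTop_ciSup (mono P) (bb P), fun P => ⟨?_, ciSup_le (bd' P)⟩⟩
  simpa using le_ciSup (bb P) 0

theorem exists_min {G : Type} (H : G → ℝ) (hf : ∀ B, {P | H P ≤ B}.Finite) (S : Set G)
    (hS : S.Nonempty) : ∃ P ∈ S, ∀ Q ∈ S, H P ≤ H Q := by
  obtain ⟨P₀, h₀⟩ := hS
  obtain ⟨P, hP, h⟩ := Set.exists_min_image (S ∩ {P | H P ≤ H P₀}) H
    ((hf _).inter_of_right _) ⟨P₀, h₀, le_refl (H P₀)⟩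
  refine ⟨P, hP.1, fun Q hQ => ?_⟩
  rcases le_total (H Q) (H P₀) with h' | h'
  exacts [h Q ⟨hQ, h'⟩, hP.2.trans h']

end Grpx

open Grpx in
theorem t_grp : T_grp := by
  intro G _ a g₁ h0 h3 h2 hpar hfin hcos hg₁
  have h1 : ∀ P, 1 ≤ a P := fun P => by
    by_cases h : P = 0
    · rw [h, h0]
    · linarith [h3 P h]
  have hp : ∀ P, (0 : ℝ) < a P := fun P => by exact_mod_cast h1 P
  obtain ⟨H, hH, hb⟩ := exists_height a h1 h2
  have H0 : H 0 = 0 := tendsto_nhds_unique (hH 0) (by simp [h0])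
  have H2 : ∀ P, H (P + P) = 4 * H P := fun P => by
    refine tendsto_nhds_unique (hH _) ?_
    refine (((hH P).comp (tendsto_add_atTop_nat 1)).const_mul 4).congr fun k => ?_
    simp only [Function.comp, pow_succ, mul_two, add_nsmul, nsmul_add]
    field_simp
  have Hle : ∀ P Q, H (P + Q) + H (P - Q) ≤ 2 * H P + 2 * H Q := fun P Q => by
    have t : Tendsto (fun k : ℕ => Real.log 3 / 4 ^ k) atTop (𝓝 0) :=
      tendsto_const_nhds.div_atTop (tendsto_pow_atTop_atTop_of_one_lt (by norm_num))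
    have := le_of_tendsto_of_tendsto' ((hH (P + Q)).add (hH (P - Q)))
      ((t.add ((hH P).const_mul 2)).add ((hH Q).const_mul 2)) fun k => by
        have := Real.log_le_log (mul_pos (hp _) (hp _))
          (show (a (2 ^ k • P + 2 ^ k • Q) : ℝ) * a (2 ^ k • P - 2 ^ k • Q) ≤
            3 * (a (2 ^ k • P) : ℝ) ^ 2 * (a (2 ^ k • Q) : ℝ) ^ 2 by exact_mod_cast hpar _ _)
        rw [Real.log_mul (hp _).ne' (hp _).ne', Real.log_mul (by have := hp (2 ^ k • P); positivity)
          (pow_pos (hp _) 2).ne', Real.log_mul (by norm_num) (pow_pos (hp _) 2).ne', Real.log_pow,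
          Real.log_pow] at this
        rw [nsmul_add, nsmul_sub, ← mul_div_assoc, ← mul_div_assoc, ← add_div, ← add_div, ← add_div]
        exact div_le_div_of_nonneg_right (by exact_mod_cast this) (by positivity)
    simpa using this
  have Heq : ∀ P Q, H (P + Q) + H (P - Q) = 2 * H P + 2 * H Q := fun P Q => by
    have := Hle (P + Q) (P - Q)
    rw [show P + Q + (P - Q) = P + P by abel, show P + Q - (P - Q) = Q + Q by abel, H2, H2] at this
    linarith [Hle P Q]
  have Hneg : ∀ P, H (-P) = H P := fun P => by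
    have := Heq 0 P
    rw [zero_add, zero_sub, H0] at this
    linarith
  have Hn : ∀ P (n : ℕ), H (n • P) = n ^ 2 * H P := fun P n => by
    induction n using Nat.twoStepInduction with
    | zero => simp [H0]
    | one => simp
    | more n ih1 ih2 =>
      have := Heq ((n + 1) • P) P
      rw [← succ_nsmul, show (n + 1) • P - P = n • P by rw [succ_nsmul]; abel, ih1, ih2] at this
      push_cast at this ⊢
      linarith
  have l3 : 0 < Real.log 3 := Real.log_pos (by norm_num)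
  have Hpos : ∀ P, P ≠ 0 → Real.log 3 ≤ H P := fun P h =>
    (Real.log_le_log (by norm_num) (by exact_mod_cast h3 P h)).trans (hb P).1
  have hf : ∀ B, {P | H P ≤ B}.Finite := fun B => (hfin ⌈Real.exp B⌉₊).subset fun P hP => by
    have : (a P : ℝ) ≤ Real.exp B := (Real.log_le_iff_le_exp (hp P)).1 ((hb P).1.trans hP)
    exact_mod_cast this.trans (Nat.le_ceil _)
  obtain ⟨g, hg, hmin⟩ := exists_min H hf {P | P ≠ 0} ⟨g₁, hg₁⟩
  obtain ⟨R₀, hR₀⟩ : ∃ R, g = R + R + g₁ := by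
    obtain ⟨R, h | h⟩ := hcos g
    · have hR : R ≠ 0 := fun h' => hg (by rw [h, h', add_zero])
      have := hmin R hR
      rw [h, H2] at this
      linarith [Hpos R hR]
    · exact ⟨R, h⟩
  refine ⟨g, Real.exp (H g), (Real.log_le_iff_le_exp (by norm_num)).1 (Hpos g hg), ?_, fun k => ?_⟩
  · by_contra hc
    obtain ⟨P, hP, hm⟩ := exists_min H hf {P | ¬ ∃ k : ℤ, P = k • g} (not_forall.1 hc)
    have nz : ∀ Q, (¬ ∃ k : ℤ, Q = k • g) → Q ≠ 0 := fun Q hQ h => hQ ⟨0, by rw [h, zero_smul]⟩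
    obtain ⟨R, h | h⟩ := hcos P
    · have hR : ¬ ∃ k : ℤ, R = k • g := fun ⟨k, hk⟩ => hP ⟨k + k, by rw [h, hk, add_smul]⟩
      have := hm R hR
      rw [h, H2] at this
      linarith [Hpos R (nz R hR)]
    · have e : P = (R - R₀) + (R - R₀) + g := by rw [h, hR₀]; abel
      have hR : ¬ ∃ k : ℤ, R - R₀ = k • g := fun ⟨k, hk⟩ =>
        hP ⟨k + k + 1, by rw [e, hk, add_smul, add_smul, one_smul]⟩
      have hR' : ¬ ∃ k : ℤ, R - R₀ + g = k • g := fun ⟨k, hk⟩ =>
        hR ⟨k - 1, by rw [sub_smul, ← hk, one_smul]; abel⟩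
      have := Heq P g
      rw [show P + g = (R - R₀ + g) + (R - R₀ + g) by rw [e]; abel,
        show P - g = (R - R₀) + (R - R₀) by rw [e]; abel, H2, H2] at this
      linarith [hm _ hR, Hpos _ (nz _ hR'), hmin P (nz P hP)]
  · have e : Real.exp (H g) ^ (k.natAbs ^ 2) = Real.exp (H (k • g)) := by
      rw [← Real.exp_nat_mul]
      congr 1
      rcases Int.natAbs_eq k with h | h
      · conv_rhs => rw [h, natCast_zsmul, Hn]
        push_cast; ring
      · conv_rhs => rw [h, neg_smul, Hneg, natCast_zsmul, Hn]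
        push_cast; ring
    rw [e]
    refine ⟨(Real.log_le_iff_le_exp (hp _)).1 (hb _).1, ?_⟩
    have := Real.exp_le_exp.2 (hb (k • g)).2
    rwa [Real.exp_add, Real.exp_log (hp _), Real.exp_log (by norm_num), mul_comm] at this

end Crest.Agent.H4.SD
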