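import Crest.Agent.H4.SF.Defs

/-! Task `half` of S0500: a point of `y² = x³ - 2x` is a double iff it is zero or its abscissa
is a non-zero square. -/

set_option autoImplicit false

namespace Crest.Agent.H4.SD

open WeierstrassCurve WeierstrassCurve.Affine

namespace H5

lemma ns_iff (x y : ℚ) : W.Nonsingular x y ↔ y ^ 2 = x ^ 3 - 2 * x := by
  have hΔ : W.Δ ≠ 0 := by
    simp only [W, WeierstrassCurve.Δ, WeierstrassCurve.b₂, WeierstrassCurve.b₄,
      WeierstrassCurve.b₆, WeierstrassCurve.b₈]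
    norm_num
  rw [← equation_iff_nonsingular_of_Δ_ne_zero hΔ, equation_iff]
  simp only [W]
  constructor <;> intro h <;> linarith

lemma negY_eq (x y : ℚ) : W.negY x y = -y := by
  simp [W, negY]

lemma some_congr {x y x' : ℚ} (h : W.Nonsingular x y) (hx : x = x') :
    ∃ h' : W.Nonsingular x' y, Point.some x y h = Point.some x' y h' := by
  subst hx
  exact ⟨h, rfl⟩

lemma dbl_zero {x y : ℚ} (h : W.Nonsingular x y) (hy : y = 0) :
    Point.some x y h + Point.some x y h = 0 := by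
  apply Point.add_self_of_Y_eq
  rw [negY_eq, hy, neg_zero]

lemma dbl_x {x y : ℚ} (h : W.Nonsingular x y) (hy : y ≠ 0) :
    ∃ (y' : ℚ) (h' : W.Nonsingular (((x ^ 2 + 2) / (2 * y)) ^ 2) y'),
      Point.some x y h + Point.some x y h = Point.some _ y' h' := by
  have hy' : y ≠ W.negY x y := by
    rw [negY_eq]
    intro h0
    apply hy
    linarith
  rw [Point.add_self_of_Y_ne hy']
  have he := (ns_iff x y).1 h
  have hx : W.addX x x (W.slope x x y y) = ((x ^ 2 + 2) / (2 * y)) ^ 2 := by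
    rw [slope_of_Y_ne rfl hy', negY_eq]
    simp only [addX, W]
    have h2 : y - -y = 2 * y := by ring
    rw [h2]
    field_simp
    linear_combination (-8 * x) * he
  obtain ⟨h', e⟩ := some_congr (nonsingular_add h h fun hxy => hy' hxy.right) hx
  exact ⟨_, h', e⟩

lemma add_x {x₁ y₁ x₂ y₂ : ℚ} (h₁ : W.Nonsingular x₁ y₁) (h₂ : W.Nonsingular x₂ y₂)
    (hx : x₁ ≠ x₂) :
    ∃ (y' : ℚ) (h' : W.Nonsingular (((y₁ - y₂) / (x₁ - x₂)) ^ 2 - x₁ - x₂) y'),
      Point.some x₁ y₁ h₁ + Point.some x₂ y₂ h₂ = Point.some _ y' h' := by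
  rw [Point.add_of_X_ne hx]
  have hx' : W.addX x₁ x₂ (W.slope x₁ x₂ y₁ y₂) = ((y₁ - y₂) / (x₁ - x₂)) ^ 2 - x₁ - x₂ := by
    rw [slope_of_X_ne hx]
    simp only [addX, W]
    ring
  obtain ⟨h', e⟩ := some_congr (nonsingular_add h₁ h₂ fun hxy => hx hxy.left) hx'
  exact ⟨_, h', e⟩

lemma eq_or_neg {x y y' : ℚ} (h : W.Nonsingular x y) (h' : W.Nonsingular x y') :
    Point.some x y h = Point.some x y' h' ∨ Point.some x y h = -Point.some x y' h' := by
  apply Point.eq_or_eq_neg_of_xRep_eq_xRep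
  simp

/-- square classes of `X` when `X (X² + c)` is a square and `c ∣ 8` -/
lemma sqclass (X z : ℚ) (c : ℤ) (hc : c ∣ 8) (hX : X ≠ 0) (h : X * (X ^ 2 + c) = z ^ 2) :
    ∃ w : ℚ, w ≠ 0 ∧ (X = w ^ 2 ∨ X = -w ^ 2 ∨ X = 2 * w ^ 2 ∨ X = -(2 * w ^ 2)) := by
  set n : ℤ := X.num with hn
  set e : ℤ := (X.den : ℤ) with he
  have he0 : e ≠ 0 := by rw [he]; exact_mod_cast X.den_nz
  have he0' : (e : ℚ) ≠ 0 := by exact_mod_cast he0
  have hn0 : n ≠ 0 := Rat.num_ne_zero.2 hX
  have hXe : X = (n : ℚ) / e := by rw [hn, he]; simpa using (Rat.num_div_den X).symm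
  have hcop : IsCoprime n e := by
    rw [Int.isCoprime_iff_gcd_eq_one, hn, he]
    simpa [Int.gcd] using X.reduced
  have hsq : IsSquare (((n * e * (n ^ 2 + c * e ^ 2) : ℤ)) : ℚ) := by
    refine ⟨z * e ^ 2, ?_⟩
    have : z * e ^ 2 * (z * e ^ 2) = z ^ 2 * e ^ 4 := by ring
    rw [this, ← h, hXe]
    push_cast
    field_simp
  rw [Rat.isSquare_intCast_iff] at hsq
  obtain ⟨m, hm⟩ := hsq
  obtain ⟨a, b, hab, hsf⟩ := Nat.sq_mul_squarefree (n * e).natAbs
  have hne0 : n * e ≠ 0 := mul_ne_zero hn0 he0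
  have hab0 : b ^ 2 * a ≠ 0 := by rw [hab]; exact Int.natAbs_ne_zero.2 hne0
  have hb0 : b ≠ 0 := by rintro rfl; simp at hab0
  have ha0 : a ≠ 0 := by rintro rfl; simp at hab0
  set K : ℤ := n ^ 2 + c * e ^ 2 with hK
  have h1 : b ^ 2 * a * K.natAbs = m.natAbs ^ 2 := by
    rw [hab, ← Int.natAbs_mul, hm, Int.natAbs_mul, sq]
  have hbm : b ∣ m.natAbs := by
    rw [← Nat.pow_dvd_pow_iff (two_ne_zero), ← h1, mul_assoc]
    exact Dvd.intro _ rfl
  obtain ⟨m', hm'⟩ := hbm
  have h2 : a * K.natAbs = m' ^ 2 := by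
    have : b ^ 2 * (a * K.natAbs) = b ^ 2 * m' ^ 2 := by rw [← mul_assoc, h1, hm']; ring
    exact Nat.eq_of_mul_eq_mul_left (by positivity) this
  have ham : a ∣ m' := by
    have : a ∣ m' ^ 2 := by rw [← h2]; exact Dvd.intro _ rfl
    exact (hsf.dvd_pow_iff_dvd two_ne_zero).1 this
  obtain ⟨m'', hm''⟩ := ham
  have haK : a ∣ K.natAbs := by
    have : a * K.natAbs = a * (a * m'' ^ 2) := by rw [h2, hm'']; ring
    exact ⟨_, Nat.eq_of_mul_eq_mul_left (Nat.pos_of_ne_zero ha0) this⟩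
  have haK' : (a : ℤ) ∣ K := Int.natCast_dvd.2 haK
  have hane : (a : ℤ) ∣ n * e := Int.natCast_dvd.2 (by rw [← hab]; exact Dvd.intro_left _ rfl)
  have h3 : (a : ℤ) ∣ c * n ^ 3 := by
    have : c * n ^ 3 = c * (n * K - c * e * (n * e)) := by rw [hK]; ring
    rw [this]
    exact Dvd.dvd.mul_left (dvd_sub (haK'.mul_left _) (hane.mul_left _)) _
  have h4 : (a : ℤ) ∣ c * e ^ 3 := by
    have : c * e ^ 3 = e * K - n * (n * e) := by rw [hK]; ring
    rw [this]
    exact dvd_sub (haK'.mul_left _) (hane.mul_left _)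
  have hac : (a : ℤ) ∣ c := by
    obtain ⟨u, v, huv⟩ := (hcop.pow (m := 3) (n := 3))
    have : c = u * (c * n ^ 3) + v * (c * e ^ 3) := by
      linear_combination (-c) * huv
    rw [this]
    exact dvd_add (h3.mul_left _) (h4.mul_left _)
  have ha8 : a ∣ 2 ^ 3 := by
    have : (a : ℤ) ∣ ((8 : ℕ) : ℤ) := hac.trans (by simpa using hc)
    exact Int.natCast_dvd_natCast.1 this
  have ha2 : a ∣ 2 := (hsf.dvd_pow_iff_dvd (by norm_num)).1 ha8
  have hXne : X = ((n * e : ℤ) : ℚ) / e ^ 2 := by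
    rw [hXe]; push_cast; field_simp
  have hb0' : (b : ℚ) ≠ 0 := by exact_mod_cast hb0
  refine ⟨b / e, div_ne_zero hb0' he0', ?_⟩
  have hcase : n * e = ((b ^ 2 * a : ℕ) : ℤ) ∨ n * e = -((b ^ 2 * a : ℕ) : ℤ) := by
    rw [hab]; exact Int.natAbs_eq _
  rcases (Nat.dvd_prime Nat.prime_two).1 ha2 with rfl | rfl <;> rcases hcase with h5 | h5
  · left; rw [hXne, h5]; push_cast; field_simp
  · right; left; rw [hXne, h5]; push_cast; field_simp
  · right; right; left; rw [hXne, h5]; push_cast; field_simp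
  · right; right; right; rw [hXne, h5]; push_cast; field_simp

/-- a point whose abscissa is a non-zero square is a double -/
lemma half_of_sq {t y : ℚ} (ht : t ≠ 0) (h : W.Nonsingular (t ^ 2) y) :
    ∃ R : W.Point, Point.some _ y h = R + R := by
  have he := (ns_iff _ _).1 h
  set s : ℚ := y / t with hs
  have hs2 : s ^ 2 = t ^ 4 - 2 := by
    rw [hs]; field_simp; linear_combination he
  have ht2 : 0 < t ^ 2 := by positivity
  have hXpos : 0 < 2 * (t ^ 2 + s) := by
    by_contra hneg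
    have h1 : t ^ 2 ≤ -s := by linarith
    nlinarith
  set X : ℚ := 2 * (t ^ 2 + s) with hX
  have hX1 : X ^ 2 + 8 = 4 * t ^ 2 * X := by rw [hX]; linear_combination 4 * hs2
  obtain ⟨w, hw0, hw⟩ : ∃ w : ℚ, w ≠ 0 ∧ w ^ 4 + 8 = 4 * t ^ 2 * w ^ 2 := by
    obtain ⟨w, hw0, hw⟩ := sqclass X (2 * t * X) 8 dvd_rfl hXpos.ne'
      (by push_cast; rw [hX1]; ring)
    have hw2 : 0 < w ^ 2 := by positivity
    rcases hw with hw | hw | hw | hw
    · exact ⟨w, hw0, by rw [hw] at hX1; linear_combination hX1⟩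
    · exfalso; linarith
    · refine ⟨2 / w, div_ne_zero two_ne_zero hw0, ?_⟩
      rw [hw] at hX1
      field_simp
      linear_combination 2 * hX1
    · exfalso; linarith
  set r : ℚ := w * (w + 2 * t) / 2 with hr
  have hr0 : r ≠ 0 := by
    rw [hr]
    refine div_ne_zero (mul_ne_zero hw0 ?_) two_ne_zero
    intro h0
    have : w = -2 * t := by linarith
    rw [this] at hw
    have : (8 : ℚ) = 0 := by linear_combination hw
    norm_num at this
  have hr1 : r ^ 2 - 2 = w ^ 2 * r := by rw [hr]; linear_combination (-1 / 4) * hw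
  have hr2 : r ^ 2 + 2 = 2 * t * w * r := by rw [hr]; linear_combination (1 / 4) * hw
  have hR : W.Nonsingular r (w * r) := (ns_iff _ _).2 (by linear_combination (-r) * hr1)
  obtain ⟨y', h', e⟩ := dbl_x hR (mul_ne_zero hw0 hr0)
  have hq : ((r ^ 2 + 2) / (2 * (w * r))) ^ 2 = t ^ 2 := by
    rw [hr2]; field_simp
  obtain ⟨h'', e'⟩ := some_congr h' hq
  rw [e'] at e
  rcases eq_or_neg h h'' with h1 | h1
  · exact ⟨_, by rw [h1, e]⟩
  · exact ⟨-Point.some r (w * r) hR, by rw [h1, ← e, neg_add]⟩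

end H5

open H5 in
theorem t_half : T_half := by
  intro P
  constructor
  · rintro ⟨R, rfl⟩
    rcases R with _ | ⟨x, y, h⟩
    · left; rfl
    · by_cases hy : y = 0
      · left; exact dbl_zero h hy
      · right
        obtain ⟨y', h', e⟩ := dbl_x h hy
        set q : ℚ := (x ^ 2 + 2) / (2 * y) with hq
        have hq0 : q ≠ 0 := div_ne_zero (by positivity) (mul_ne_zero two_ne_zero hy)
        have hx : q ^ 2 = (((q.num.natAbs : ℕ) : ℚ) / (q.den : ℕ)) ^ 2 := by
          conv_lhs => rw [← Rat.num_div_den q]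
          rw [div_pow, div_pow]
          congr 1
          rw [Nat.cast_natAbs]
          push_cast
          rw [sq_abs]
        obtain ⟨h'', e'⟩ := some_congr h' hx
        refine ⟨q.num.natAbs, q.den, Int.natAbs_pos.2 (Rat.num_ne_zero.2 hq0), q.den_pos,
          q.reduced, y', h'', by rw [e, e']⟩
  · rintro (rfl | ⟨A, D, hA, hD, -, y, h, rfl⟩)
    · exact ⟨0, by simp⟩
    · exact half_of_sq (div_ne_zero (by exact_mod_cast hA.ne') (by exact_mod_cast hD.ne')) h

end Crest.Agent.H4.SD
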