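import Crest.Agent.H4.SF.Basic

/-! Recovering the index (`t_idx`). -/

set_option autoImplicit false

namespace Crest.Agent.H4.SD

namespace IdxX

theorem pell_iff {A : ℕ} (h : 1 < A) (x y : ℕ) :
    x * x + y * y = 1 + A * A * y * y ↔ ∃ N, x = Pell.xn h N ∧ y = Pell.yn h N := by
  obtain ⟨c, hc⟩ : ∃ c, A * A = c + 1 := ⟨A * A - 1, by
    have : 0 < A * A := by positivity
    omega⟩
  have e : (c + 1) * y * y = c * y * y + y * y := by ring
  constructor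
  · intro H
    refine Pell.eq_pell h ?_
    change x * x - (A * A - 1) * y * y = 1
    rw [hc] at H ⊢
    rw [Nat.add_sub_cancel]
    omega
  · rintro ⟨N, hx, hy⟩
    have : Pell.xn h N * Pell.xn h N - (A * A - 1) * Pell.yn h N * Pell.yn h N = 1 :=
      Pell.pell_eq h N
    rw [← hx, ← hy, hc, Nat.add_sub_cancel] at this
    rw [hc]
    omega

/-- the Diophantine condition -/
def C (a d : ℕ → ℕ) (j A G D E x y : ℕ) : Prop :=
  2 ≤ j ∧ SqR a d A D G E ∧ A ≠ a 1 ∧ x * x + y * y = 1 + A * A * y * y ∧ y ≤ 2 * G ∧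
    G ≤ 4 * A ^ 2 * y ∧ y % (A - 1) = j ^ 2 ∧ j ^ 2 < A - 1

theorem of_C (hp : T_pell) {a d : ℕ → ℕ} {l : ℝ} (hS : Seq a d l) {j A G D E x y : ℕ}
    (h : C a d j A G D E x y) : ∃ h1 : 1 < a j, A = a j ∧ G = a (j ^ 2) ∧ D = d j ∧
      E = d (j ^ 2) ∧ x = Pell.xn h1 (j ^ 2) ∧ y = Pell.yn h1 (j ^ 2) := by
  obtain ⟨hj, ⟨m, hm, rfl, rfl, rfl, rfl⟩, hne, hxy, h1, h2, h3, -⟩ := h
  have hm2 : 2 ≤ m := by
    by_contra hc
    exact hne (by rw [show m = 1 by omega])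
  obtain ⟨hA, p1, -, -, -, p5, p6⟩ := hp a d l hS m hm2
  obtain ⟨N, rfl, rfl⟩ := (pell_iff hA x y).1 hxy
  have q1 := p5 N h1
  have q2 := p6 N h2
  have q3 : Pell.yn hA N % (a m - 1) = N % (a m - 1) := Pell.yn_modEq_a_sub_one hA N
  rw [h3, Nat.mod_eq_of_lt (by omega)] at q3
  subst q3
  have : j = m := by
    rcases lt_trichotomy j m with h | h | h
    · have := Nat.pow_le_pow_left (show j + 1 ≤ m from h) 2
      nlinarith
    · exact h
    · have := Nat.pow_le_pow_left (show m + 1 ≤ j from h) 2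
      nlinarith
  subst this
  exact ⟨hA, rfl, rfl, rfl, rfl, rfl, rfl⟩

theorem to_C (hp : T_pell) {a d : ℕ → ℕ} {l : ℝ} (hS : Seq a d l) {j : ℕ} (hj : 2 ≤ j) :
    ∃ D E x y, C a d j (a j) (a (j ^ 2)) D E x y := by
  obtain ⟨hA, p1, -, p3, p4, -, -⟩ := hp a d l hS j hj
  refine ⟨d j, d (j ^ 2), Pell.xn hA (j ^ 2), Pell.yn hA (j ^ 2), hj,
    ⟨j, by omega, rfl, rfl, rfl, rfl⟩, fun he => ?_, (pell_iff hA _ _).2 ⟨_, rfl, rfl⟩, p3, p4,
    ?_, by omega⟩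
  · have h1 := hS.le 1 le_rfl
    have h2 := hS.ge j (by omega)
    have h3 := hS.three_le
    have h4 : l ^ 2 ≤ l ^ (j ^ 2) := pow_le_pow_right₀ (by linarith) (by nlinarith)
    rw [he] at h2
    rw [one_pow, pow_one] at h1
    nlinarith
  · have q3 : Pell.yn hA (j ^ 2) % (a j - 1) = j ^ 2 % (a j - 1) :=
      Pell.yn_modEq_a_sub_one hA (j ^ 2)
    rw [q3, Nat.mod_eq_of_lt (by omega)]

end IdxX

open IdxX

theorem t_idx : T_idx := by
  intro hp a d l hS hsq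
  apply SF3.mk
  refine (SF.ex4 (S := fun D E x y v => C a d (v 0) (v 1) (v 2) D E x y) ?_ ?_).congr fun v => ?_
  · unfold C
    repeat' first | with_reducible sf1 | apply hsq
  · intro v D E x y D' E' x' y' h h'
    obtain ⟨h1, -, -, rfl, rfl, rfl, rfl⟩ := of_C hp hS h
    obtain ⟨h2, -, -, rfl, rfl, rfl, rfl⟩ := of_C hp hS h'
    exact ⟨rfl, rfl, rfl, rfl⟩
  · constructor
    · rintro ⟨D, E, x, y, h⟩
      obtain ⟨h1, h2, h3, -⟩ := of_C hp hS h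
      exact ⟨h.1, h2, h3⟩
    · rintro ⟨hj, h1, h2⟩
      rw [h1, h2]
      exact to_C hp hS hj

end Crest.Agent.H4.SD
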