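import Crest.Agent.H4.SF.Defs

/-! The Pell facts (`t_pell`). -/

set_option autoImplicit false

namespace Crest.Agent.H4.SD

namespace PellX

theorem yn_ge {A : ℕ} (h : 1 < A) (N : ℕ) : A ^ N ≤ Pell.yn h (N + 1) := by
  rw [Pell.yn_succ]
  exact (Pell.xn_ge_a_pow h N).trans (Nat.le_add_right _ _)

theorem yn_le {A : ℕ} (h : 1 < A) (N : ℕ) : Pell.yn h (N + 1) ≤ (2 * A) ^ N := by
  induction N with
  | zero => simp
  | succ N ih =>
    have := Pell.yn_succ_succ h N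
    calc Pell.yn h (N + 2) ≤ 2 * A * Pell.yn h (N + 1) := by omega
      _ ≤ 2 * A * (2 * A) ^ N := Nat.mul_le_mul_left _ ih
      _ = (2 * A) ^ (N + 1) := by ring

theorem two_three (k : ℕ) : (4 : ℝ) * 2 ^ (k + 4) ≤ 3 ^ (k + 4) := by
  induction k with
  | zero => norm_num
  | succ k ih =>
    have : (0 : ℝ) ≤ 2 ^ (k + 4) := by positivity
    rw [show k + 1 + 4 = k + 4 + 1 by ring, pow_succ, pow_succ (3 : ℝ)]
    linarith

end PellX

open PellX

theorem t_pell : T_pell := by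
  intro a d l hS m hm
  obtain ⟨k, hk⟩ : ∃ k, m ^ 2 = k + 4 := ⟨m ^ 2 - 4, by
    have : 2 ^ 2 ≤ m ^ 2 := Nat.pow_le_pow_left hm 2
    omega⟩
  have hA1 := hS.le m (by omega)
  have hA2 := hS.ge m (by omega)
  have hG1 := hS.le (m ^ 2) (by omega)
  have hG2 := hS.ge (m ^ 2) (by omega)
  rw [sq (m ^ 2), pow_mul] at hG1 hG2
  rw [hk] at hA1 hA2 hG1 hG2 ⊢
  have hL : (4 : ℝ) * 2 ^ (k + 4) ≤ l ^ (k + 4) :=
    (two_three k).trans (pow_le_pow_left₀ (by norm_num) hS.three_le _)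
  set L := l ^ (k + 4) with hLdef
  set A := a m with hAdef
  set G := a (k + 4) with hGdef
  have hKA : 2 * 2 ^ (k + 4) ≤ A := by
    have : (2 : ℝ) * 2 ^ (k + 4) ≤ A := by linarith
    exact_mod_cast this
  have hK : k + 4 < 2 ^ (k + 4) := Nat.lt_two_pow_self
  have hA : 1 < A := by omega
  have hK0 : (0 : ℝ) < 2 ^ k := by positivity
  have hK1 : (1 : ℝ) ≤ 2 ^ k := one_le_pow₀ (by norm_num)
  have hL' : (64 : ℝ) * 2 ^ k ≤ L := by
    rw [pow_add] at hL; linarith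
  have hL0 : 0 < L := by linarith
  have hA0 : (0 : ℝ) ≤ A := Nat.cast_nonneg _
  have hLk : 0 < L ^ k := by positivity
  -- powers
  have up : ∀ N : ℕ, (2 * (A : ℝ)) ^ N ≤ 2 ^ N * L ^ N := fun N => by
    rw [← mul_pow]; exact pow_le_pow_left₀ (by positivity) (by linarith) _
  have low : ∀ N : ℕ, L ^ N ≤ 2 ^ N * (A : ℝ) ^ N := fun N => by
    rw [← mul_pow]; exact pow_le_pow_left₀ hL0.le hA2 _
  refine ⟨hA, by omega, by omega, ?_, ?_, fun N hN => ?_, fun N hN => ?_⟩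
  · have h1 : (Pell.yn hA (k + 3 + 1) : ℝ) ≤ (2 * A) ^ (k + 3) := by exact_mod_cast yn_le hA (k + 3)
    have h2 := up (k + 3)
    have h3 : (2 : ℝ) ^ (k + 3) * L ^ (k + 3) ≤ L ^ (k + 4) := by
      rw [pow_succ L (k + 3), mul_comm]
      refine mul_le_mul_of_nonneg_left ?_ (by positivity)
      rw [pow_add]; linarith
    have : (Pell.yn hA (k + 4) : ℝ) ≤ 2 * G := by linarith
    exact_mod_cast this
  · have h1 : (A : ℝ) ^ (k + 3) ≤ (Pell.yn hA (k + 3 + 1) : ℝ) := by exact_mod_cast yn_ge hA (k + 3)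
    have h2 := low (k + 5)
    have h3 : (2 : ℝ) ^ (k + 5) * L ^ (k + 4) ≤ 4 * L ^ (k + 5) := by
      rw [pow_succ L (k + 4), mul_comm (L ^ (k + 4)), ← mul_assoc]
      refine mul_le_mul_of_nonneg_right ?_ (by positivity)
      rw [pow_add]; linarith
    have h4 : L ^ (k + 4) ≤ 4 * (A : ℝ) ^ (k + 5) := by
      have h5 : (0 : ℝ) < 2 ^ (k + 5) := by positivity
      refine le_of_mul_le_mul_left ?_ h5
      linarith
    have h6 : 4 * (A : ℝ) ^ (k + 5) ≤ 4 * A ^ 2 * (Pell.yn hA (k + 4) : ℝ) := by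
      rw [show k + 5 = 2 + (k + 3) by ring, pow_add, ← mul_assoc]
      exact mul_le_mul_of_nonneg_left h1 (by positivity)
    have : (G : ℝ) ≤ 4 * A ^ 2 * (Pell.yn hA (k + 4) : ℝ) := by linarith
    exact_mod_cast this
  · by_contra hc
    have h0 : Pell.yn hA (k + 6 + 1) ≤ Pell.yn hA N := (Pell.strictMono_y hA).monotone (by omega)
    have h1 : (A : ℝ) ^ (k + 6) ≤ 2 * G := by exact_mod_cast (yn_ge hA (k + 6)).trans (h0.trans hN)
    have h2 := low (k + 6)
    have h3 : L ^ (k + 6) ≤ 2 ^ (k + 6) * (2 * L ^ (k + 4)) :=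
      h2.trans (mul_le_mul_of_nonneg_left (by linarith) (by positivity))
    rw [show k + 6 = k + 4 + 2 by ring, pow_add L (k + 4) 2, ← mul_assoc, mul_comm (L ^ (k + 4))]
      at h3
    have h4 := le_of_mul_le_mul_right h3 (by positivity)
    rw [show k + 4 + 2 = k + 6 by ring, pow_add] at h4
    nlinarith
  · by_contra hc
    have h0 : Pell.yn hA N ≤ Pell.yn hA (k + 1) := (Pell.strictMono_y hA).monotone (by omega)
    have h1 : (G : ℝ) ≤ 4 * A ^ 2 * (2 * A) ^ k := by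
      exact_mod_cast hN.trans (Nat.mul_le_mul_left _ (h0.trans (yn_le hA k)))
    have h2 := up (k + 2)
    have h3 : L ^ (k + 4) ≤ 2 * (2 ^ (k + 2) * L ^ (k + 2)) := by
      have : 4 * (A : ℝ) ^ 2 * (2 * A) ^ k = (2 * A) ^ (k + 2) := by ring
      linarith
    rw [show k + 4 = k + 2 + 2 by ring, pow_add L (k + 2) 2, ← mul_assoc, mul_comm (L ^ (k + 2))]
      at h3
    have h4 := le_of_mul_le_mul_right h3 (by positivity)
    rw [pow_add] at h4
    nlinarith

end Crest.Agent.H4.SD
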