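import Crest.Agent.H4.SF.Basic

/-! Task `pow` of S0500: exponentiation has a single-fold graph. -/

set_option autoImplicit false

namespace Crest.Agent.H4.SD

namespace PowX

/-- the defining system of `z = b ^ n` -/
def Q (a : ℕ → ℕ) (A G x y b n z : ℕ) : Prop :=
  IdxR a (b + n + 2) A G ∧ x * x + y * y = 1 + A * A * y * y ∧ y ≤ 2 * G ∧ y % (A - 1) = n ∧
    z + (b * b + 1) < 2 * A * b ∧ y * (A - b) + z ≡ x [MOD 2 * A * b - (b * b + 1)]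

theorem pell_iff {A : ℕ} (h : 1 < A) (x y : ℕ) :
    x * x + y * y = 1 + A * A * y * y ↔ ∃ N, x = Pell.xn h N ∧ y = Pell.yn h N := by
  have hA : 1 ≤ A * A := Nat.one_le_iff_ne_zero.2 (by positivity)
  obtain ⟨c, hc⟩ : ∃ c, A * A = c + 1 := ⟨A * A - 1, by omega⟩
  have hc' : A * A - 1 = c := by omega
  constructor
  · intro e
    apply Pell.eq_pell h
    change x * x - (A * A - 1) * y * y = 1
    rw [hc']
    rw [hc] at e
    have : (c + 1) * y * y = c * y * y + y * y := by ring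
    omega
  · rintro ⟨N, rfl, rfl⟩
    have e : Pell.xn h N * Pell.xn h N - (A * A - 1) * Pell.yn h N * Pell.yn h N = 1 :=
      Pell.pell_eq h N
    rw [hc'] at e
    rw [hc]
    have : (c + 1) * Pell.yn h N * Pell.yn h N =
      c * Pell.yn h N * Pell.yn h N + Pell.yn h N * Pell.yn h N := by ring
    omega

theorem cong {A : ℕ} (h : 1 < A) (b n : ℕ) (hb : b ≤ A) (hM : b * b + 1 ≤ 2 * A * b) :
    Pell.yn h n * (A - b) + b ^ n ≡ Pell.xn h n [MOD 2 * A * b - (b * b + 1)] := by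
  apply Nat.ModEq.symm
  apply Nat.modEq_of_dvd
  have := Pell.x_sub_y_dvd_pow h b n
  rw [Nat.cast_sub hM, Nat.cast_add (Pell.yn h n * _), Nat.cast_mul (Pell.yn h n), Nat.cast_sub hb]
  have e : (((2 * A * b : ℕ) : ℤ) - ((b * b + 1 : ℕ) : ℤ)) = 2 * A * b - b * b - 1 := by
    push_cast; ring
  rw [e]
  exact this

theorem q_aux {A₀ G₀ j b n : ℕ} (h : 1 < A₀) (hb : 0 < b) (hj : j = b + n + 2)
    (h1 : j ^ 2 + 2 < A₀ - 1) (h2 : 2 ^ (j ^ 2) ≤ A₀) (h3 : Pell.yn h (j ^ 2) ≤ 2 * G₀)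
    (h5 : ∀ N, Pell.yn h N ≤ 2 * G₀ → N ≤ j ^ 2 + 2) (x y z : ℕ) :
    (x * x + y * y = 1 + A₀ * A₀ * y * y ∧ y ≤ 2 * G₀ ∧ y % (A₀ - 1) = n ∧
      z + (b * b + 1) < 2 * A₀ * b ∧ y * (A₀ - b) + z ≡ x [MOD 2 * A₀ * b - (b * b + 1)]) ↔
    x = Pell.xn h n ∧ y = Pell.yn h n ∧ z = b ^ n := by
  have hjj : j ≤ j ^ 2 := Nat.le_self_pow two_ne_zero j
  have hbA : b < A₀ := by omega
  have hpow : b ^ n < A₀ := by
    have e1 : b ≤ 2 ^ j := (show b ≤ j by omega).trans Nat.lt_two_pow_self.le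
    calc b ^ n ≤ (2 ^ j) ^ n := Nat.pow_le_pow_left e1 n
      _ = 2 ^ (j * n) := (pow_mul _ _ _).symm
      _ < 2 ^ (j ^ 2) := by
        apply Nat.pow_lt_pow_right (by norm_num)
        rw [sq]
        exact Nat.mul_lt_mul_of_pos_left (by omega) (by omega)
      _ ≤ A₀ := h2
  have hM : A₀ + (b * b + 1) ≤ 2 * A₀ * b := by nlinarith
  have hc := cong h b n hbA.le (by omega)
  constructor
  · rintro ⟨e1, e2, e3, e4, e5⟩
    obtain ⟨N, rfl, rfl⟩ := (pell_iff h x y).1 e1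
    have hN := h5 N e2
    have hm : Pell.yn h N % (A₀ - 1) = N % (A₀ - 1) := Pell.yn_modEq_a_sub_one h N
    rw [Nat.mod_eq_of_lt (show N < A₀ - 1 by omega)] at hm
    have hNn : N = n := hm.symm.trans e3
    subst hNn
    refine ⟨rfl, rfl, ?_⟩
    have e6 := (e5.trans hc.symm).add_left_cancel' _
    exact Nat.ModEq.eq_of_lt_of_lt e6 (by omega) (by omega)
  · rintro ⟨rfl, rfl, rfl⟩
    refine ⟨(pell_iff h _ _).2 ⟨n, rfl, rfl⟩, ?_, ?_, by omega, hc⟩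
    · exact ((Pell.strictMono_y h).monotone (by omega)).trans h3
    · have hm : Pell.yn h n % (A₀ - 1) = n % (A₀ - 1) := Pell.yn_modEq_a_sub_one h n
      rw [hm]
      exact Nat.mod_eq_of_lt (by omega)

theorem q_iff (hp : T_pell) {a d : ℕ → ℕ} {l : ℝ} (hS : Seq a d l) {b : ℕ} (hb : 0 < b)
    (n : ℕ) : ∃ x₀ y₀ : ℕ, ∀ A G x y z, Q a A G x y b n z ↔
      A = a (b + n + 2) ∧ G = a ((b + n + 2) ^ 2) ∧ x = x₀ ∧ y = y₀ ∧ z = b ^ n := by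
  obtain ⟨h, h1, h2, h3, -, h5, -⟩ := hp a d l hS (b + n + 2) (by omega)
  refine ⟨Pell.xn h n, Pell.yn h n, fun A G x y z => ⟨?_, ?_⟩⟩
  · rintro ⟨⟨-, rfl, rfl⟩, e⟩
    exact ⟨rfl, rfl, (q_aux h hb rfl h1 h2 h3 h5 x y z).1 e⟩
  · rintro ⟨rfl, rfl, e⟩
    exact ⟨⟨by omega, rfl, rfl⟩, (q_aux h hb rfl h1 h2 h3 h5 x y z).2 e⟩

end PowX

open PowX in
theorem t_pow : T_pow := by
  intro hp a d l hS hI
  apply Fn2.mk
  apply SF3.mk
  have h1 : SF fun v : Fin 3 → ℕ => 0 < v 0 ∧ ∃ A G x y, 0 < v 0 ∧ Q a A G x y (v 0) (v 1) (v 2) := by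
    refine SF.and (by sf) (SF.ex4 ?_ ?_)
    · unfold Q
      repeat' first | with_reducible sf1 | apply hI
    · rintro v A G x y A' G' x' y' ⟨hb, h⟩ ⟨-, h'⟩
      obtain ⟨x₀, y₀, H⟩ := q_iff hp hS hb (v 1)
      obtain ⟨rfl, rfl, rfl, rfl, -⟩ := (H _ _ _ _ _).1 h
      obtain ⟨rfl, rfl, rfl, rfl, -⟩ := (H _ _ _ _ _).1 h'
      exact ⟨rfl, rfl, rfl, rfl⟩
  have h2 : SF fun v : Fin 3 → ℕ => (v 0 = 0 ∧ v 1 = 0 ∧ v 2 = 1) ∨ (v 0 = 0 ∧ 0 < v 1 ∧ v 2 = 0) :=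
    SF.or (by sf) (by sf) fun _ _ _ => by omega
  refine (h2.or h1 fun _ _ h => by have := h.1; omega).congr fun v => ?_
  rcases Nat.eq_zero_or_pos (v 0) with hb | hb
  · rcases Nat.eq_zero_or_pos (v 1) with hn | hn
    · simp [hb, hn, eq_comm]
    · simp [hb, hn, hn.ne', eq_comm]
  · obtain ⟨x₀, y₀, H⟩ := q_iff hp hS hb (v 1)
    simp only [hb.ne', false_and, or_self, false_or, hb, true_and]
    constructor
    · rintro ⟨A, G, x, y, h⟩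
      exact ((H _ _ _ _ _).1 h).2.2.2.2.symm
    · intro e
      exact ⟨_, _, _, _, (H _ _ _ _ _).2 ⟨rfl, rfl, rfl, rfl, e.symm⟩⟩

end Crest.Agent.H4.SD
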