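import Crest.Agent.H4.SF.Defs

/-! Pure part of task `prec`: coding the run of a primitive recursion by digits. -/

set_option autoImplicit false

namespace Crest.Agent.H4.SD.PRa

/-- the recursion -/
def R (f g : ℕ →. ℕ) (a n : ℕ) : Part ℕ :=
  n.rec (f a) fun y IH => do let i ← IH; g (Nat.pair a (Nat.pair y i))

theorem R_zero (f g : ℕ →. ℕ) (a : ℕ) : R f g a 0 = f a := rfl

theorem mem_R_succ (f g : ℕ →. ℕ) (a n y : ℕ) :
    y ∈ R f g a (n + 1) ↔ ∃ i ∈ R f g a n, y ∈ g (Nat.pair a (Nat.pair n i)) :=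
  Part.mem_bind_iff

theorem mem_of_run {f g : ℕ →. ℕ} {a n : ℕ} {c : ℕ → ℕ} (h0 : c 0 ∈ f a)
    (h : ∀ i, i < n → c (i + 1) ∈ g (Nat.pair a (Nat.pair i (c i)))) :
    ∀ i, i ≤ n → c i ∈ R f g a i := by
  intro i
  induction i with
  | zero => exact fun _ => h0
  | succ i ih => exact fun hi => (mem_R_succ ..).2 ⟨c i, ih (by omega), h i hi⟩

theorem exists_run {f g : ℕ →. ℕ} {a : ℕ} : ∀ {n y : ℕ}, y ∈ R f g a n → ∃ c : ℕ → ℕ, c 0 ∈ f a ∧
    (∀ i, i < n → c (i + 1) ∈ g (Nat.pair a (Nat.pair i (c i)))) ∧ c n = y := by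
  intro n
  induction n with
  | zero => exact fun h => ⟨fun _ => _, h, fun _ hi => absurd hi (Nat.not_lt_zero _), rfl⟩
  | succ n ih =>
    intro y h
    obtain ⟨z, hz, hy⟩ := (mem_R_succ ..).1 h
    obtain ⟨c, h0, hc, rfl⟩ := ih hz
    refine ⟨fun i => if i = n + 1 then y else c i, by simpa using h0, fun i hi => ?_, by simp⟩
    have h1 : i ≠ n + 1 := by omega
    rcases Nat.lt_succ_iff_lt_or_eq.1 hi with h2 | rfl
    · have h3 : i + 1 ≠ n + 1 := by omega
      simpa only [if_neg h1, if_neg h3] using hc i h2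
    · simpa only [if_neg h1, if_true] using hy

theorem enc {B : ℕ} (hB : 0 < B) : ∀ (n : ℕ) (c : ℕ → ℕ), (∀ i, i < n → c i < B) →
    ∃ s, s < B ^ n ∧ ∀ i, i < n → s / B ^ i % B = c i := by
  intro n
  induction n with
  | zero => exact fun _ _ => ⟨0, by simp, fun _ hi => absurd hi (Nat.not_lt_zero _)⟩
  | succ n ih =>
    intro c hc
    obtain ⟨s, hs, h⟩ := ih (fun i => c (i + 1)) fun i hi => hc _ (by omega)
    have h0 := hc 0 (by omega)
    refine ⟨c 0 + B * s, ?_, fun i hi => ?_⟩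
    · rw [pow_succ']
      calc c 0 + B * s < B * (s + 1) := by rw [mul_add_one]; omega
        _ ≤ _ := Nat.mul_le_mul_left _ hs
    · cases i with
      | zero => simp [Nat.mod_eq_of_lt h0]
      | succ i =>
        rw [pow_succ', ← Nat.div_div_eq_div_mul, Nat.add_mul_div_left _ _ hB,
          Nat.div_eq_of_lt h0, zero_add]
        exact h i (by omega)

theorem dec {B : ℕ} : ∀ (n s s' : ℕ), s < B ^ n → s' < B ^ n →
    (∀ i, i < n → s / B ^ i % B = s' / B ^ i % B) → s = s' := by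
  intro n
  induction n with
  | zero => intro s s' h h' _; simp at h h'; omega
  | succ n ih =>
    intro s s' h h' hd
    have h0 := hd 0 (by omega)
    simp only [pow_zero, Nat.div_one] at h0
    have h1 := ih (s / B) (s' / B) (Nat.div_lt_of_lt_mul (by rwa [← pow_succ']))
      (Nat.div_lt_of_lt_mul (by rwa [← pow_succ'])) fun i hi => by
        rw [Nat.div_div_eq_div_mul, Nat.div_div_eq_div_mul, ← pow_succ']
        exact hd (i + 1) (by omega)
    rw [← Nat.mod_add_div s B, ← Nat.mod_add_div s' B, h0, h1]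

/-- the coded run -/
def Q (f g : ℕ →. ℕ) (a n y B s k : ℕ) : Prop :=
  s < B ^ (n + 1) ∧ s % B ∈ f a ∧
    (∀ i, i < n → s / B ^ (i + 1) % B ∈ g (Nat.pair a (Nat.pair i (s / B ^ i % B)))) ∧
    s / B ^ n % B = y ∧ k ≤ n ∧ s / B ^ k % B + 1 = B ∧ ∀ i, i < k → s / B ^ i % B + 1 < B

theorem Q.mem {f g : ℕ →. ℕ} {a n y B s k : ℕ} (h : Q f g a n y B s k) :
    ∀ i, i ≤ n → s / B ^ i % B ∈ R f g a i :=
  mem_of_run (c := fun i => s / B ^ i % B) (by simpa using h.2.1) h.2.2.1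

theorem mem_iff (f g : ℕ →. ℕ) (a n y : ℕ) : y ∈ R f g a n ↔ ∃ B s k, Q f g a n y B s k := by
  classical
  constructor
  · intro h
    obtain ⟨c, h0, hc, rfl⟩ := exists_run h
    obtain ⟨j, hj, hmax⟩ := Finset.exists_max_image (Finset.range (n + 1)) c ⟨0, by simp⟩
    have hex : ∃ k, c k = c j := ⟨j, rfl⟩
    have hk := Nat.find_spec hex
    have hkj : Nat.find hex ≤ n := (Nat.find_min' hex rfl).trans
      (Nat.lt_succ_iff.1 (Finset.mem_range.1 hj))
    have hlt : ∀ i, i < n + 1 → c i < c j + 1 := fun i hi =>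
      Nat.lt_succ_of_le (hmax i (Finset.mem_range.2 hi))
    obtain ⟨s, hs, hd⟩ := enc (Nat.succ_pos (c j)) (n + 1) c hlt
    refine ⟨c j + 1, s, Nat.find hex, hs, ?_, fun i hi => ?_, hd n (by omega), hkj, ?_,
      fun i hi => ?_⟩
    · have := hd 0 (by omega)
      simp only [pow_zero, Nat.div_one] at this
      rwa [this]
    · rw [hd i (by omega), hd (i + 1) (by omega)]; exact hc i hi
    · rw [hd _ (by omega), hk]
    · rw [hd i (by omega)]
      have h1 := Nat.find_min hex hi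
      have h2 := hlt i (by omega)
      omega
  · rintro ⟨B, s, k, h⟩
    rw [← h.2.2.2.1]
    exact h.mem n le_rfl

theorem Q.unique {f g : ℕ →. ℕ} {a n y B s k B' s' k' : ℕ} (h : Q f g a n y B s k)
    (h' : Q f g a n y B' s' k') : B = B' ∧ s = s' ∧ k = k' := by
  have hd : ∀ i, i ≤ n → s / B ^ i % B = s' / B' ^ i % B' := fun i hi =>
    Part.mem_unique (h.mem i hi) (h'.mem i hi)
  obtain ⟨h1, -, -, -, h2, h3, h4⟩ := h
  obtain ⟨h1', -, -, -, h2', h3', h4'⟩ := h'
  have hB : B = B' := by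
    have e1 := hd k h2
    have e2 := hd k' h2'
    have l1 : s' / B' ^ k % B' < B' := Nat.mod_lt _ (by omega)
    have l2 : s / B ^ k' % B < B := Nat.mod_lt _ (by omega)
    omega
  subst hB
  have hs := dec _ _ _ h1 h1' fun i hi => hd i (by omega)
  subst hs
  refine ⟨rfl, rfl, ?_⟩
  rcases lt_trichotomy k k' with l | l | l
  · have := h4' k l; omega
  · exact l
  · have := h4 k' l; omega

end Crest.Agent.H4.SD.PRa
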