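import Crest.Agent.H4.SF.Basic
import Crest.Agent.H4.SF.PrecA

/-! Tasks `prec` and `rec`. -/

set_option autoImplicit false

namespace Crest.Agent.H4.SD

theorem t_prec : T_prec := by
  intro hpow hball f g hf hg
  have hd : ∀ {α : Type} {s B i : (α → ℕ) → ℕ}, SFn s → SFn B → SFn i →
      SFn fun v => s v / B v ^ i v % B v := fun hs hB hi => (hs.div (hpow hB hi)).mod hB
  apply SF2.mk
  refine (SF.ex3 (S := fun B s k (v : Fin 2 → ℕ) =>
    PRa.Q f g (v 0).unpair.1 (v 0).unpair.2 (v 1) B s k) ?_
    fun _ _ _ _ _ _ _ h h' => h.unique h').congr fun v => (PRa.mem_iff f g _ _ _).symm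
  have hB : SFn fun w : Option (Option (Option (Fin 2))) → ℕ => w (some (some none)) := SFn.proj _
  have hs : SFn fun w : Option (Option (Option (Fin 2))) → ℕ => w (some none) := SFn.proj _
  have hk : SFn fun w : Option (Option (Option (Fin 2))) → ℕ => w none := SFn.proj _
  have ha : SFn fun w : Option (Option (Option (Fin 2))) → ℕ =>
    (w (some (some (some 0)))).unpair.1 := (SFn.proj _).unpair1
  have hn : SFn fun w : Option (Option (Option (Fin 2))) → ℕ =>
    (w (some (some (some 0)))).unpair.2 := (SFn.proj _).unpair2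
  refine (SF.lt hs (hpow hB hn.succ)).and ((hf ha (hs.mod hB)).and (SF.and ?_
    ((SF.eq (hd hs hB hn) (SFn.proj _)).and ((SF.le hk hn).and
      ((SF.eq (hd hs hB hk).succ hB).and ?_)))))
  · exact hball (S := fun i (w : Option (Option (Option (Fin 2))) → ℕ) =>
      w (some none) / w (some (some none)) ^ (i + 1) % w (some (some none)) ∈
        g (Nat.pair (w (some (some (some 0)))).unpair.1 (Nat.pair i
          (w (some none) / w (some (some none)) ^ i % w (some (some none))))))
      (hg ((ha.map some).pair ((SFn.proj none).pair (hd (hs.map some) (hB.map some)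
        (SFn.proj none)))) (hd (hs.map some) (hB.map some) (SFn.proj none).succ)) hn
  · exact hball (S := fun i (w : Option (Option (Option (Fin 2))) → ℕ) =>
      w (some none) / w (some (some none)) ^ i % w (some (some none)) + 1 < w (some (some none)))
      (SF.lt (hd (hs.map some) (hB.map some) (SFn.proj none)).succ (hB.map some)) hk

theorem t_rec : T_rec := by
  intro hprec hpow hball F hF
  induction hF with
  | zero => exact fun _ hy => (SF.eq hy (SFn.const 0)).congr fun _ => Part.mem_some_iff.symm
  | succ => exact fun hx hy => (SF.eq hy hx.succ).congr fun _ => by simp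
  | left => exact fun hx hy => (SF.eq hy hx.unpair1).congr fun _ => by simp
  | right => exact fun hx hy => (SF.eq hy hx.unpair2).congr fun _ => by simp
  | @pair f g _ _ hf hg =>
    refine fun {α x y} hx hy => ((hf hx hy.unpair1).and (hg hx hy.unpair2)).congr fun v => ?_
    simp only [Seq.seq, Part.map_eq_map, Part.bind_eq_bind, Part.mem_bind_iff, Part.mem_map_iff]
    constructor
    · rintro ⟨h1, h2⟩
      exact ⟨_, ⟨_, h1, rfl⟩, _, h2, Nat.pair_unpair _⟩
    · rintro ⟨_, ⟨a, h1, rfl⟩, b, h2, h⟩
      rw [← h, Nat.unpair_pair]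
      exact ⟨h1, h2⟩
  | @comp f g _ _ hf hg =>
    refine fun {α x y} hx hy => (SF.ex (S := fun z v => z ∈ g (x v) ∧ y v ∈ f z)
      ((hg (hx.map some) (SFn.proj none)).and (hf (SFn.proj none) (hy.map some)))
      fun _ _ _ h h' => Part.mem_unique h.1 h'.1).congr fun v => Part.mem_bind_iff.symm
  | prec _ _ hf hg => exact hprec hpow hball _ _ hf hg
  | @rfind f _ hf =>
    refine fun {α x y} hx hy => ((hf (hx.pair hy) (SFn.const 0)).and
      (hball (S := fun m v => ∃ z, z + 1 ∈ f (Nat.pair (x v) m))
        (SF.ex (S := fun z (w : Option α → ℕ) =>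
            z + 1 ∈ f (Nat.pair (x fun a => w (some a)) (w none)))
          (hf (((hx.map some).pair (SFn.proj none)).map some) (SFn.proj none).succ)
          fun _ _ _ h h' => Nat.succ_injective (Part.mem_unique h h')) hy)).congr fun v => ?_
    refine Iff.trans ?_ (Nat.mem_rfind (p := fun n => (fun m => decide (m = 0)) <$>
      f (Nat.pair (x v) n)) (n := y v)).symm
    simp only [Part.map_eq_map, Part.mem_map_iff, decide_eq_true_eq, decide_eq_false_iff_not,
      exists_eq_right]
    refine and_congr Iff.rfl ⟨fun h m hm => ?_, fun h m hm => ?_⟩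
    · obtain ⟨z, hz⟩ := h m hm
      exact ⟨_, hz, Nat.succ_ne_zero z⟩
    · obtain ⟨z, hz, h0⟩ := h hm
      obtain ⟨z, rfl⟩ := Nat.exists_eq_succ_of_ne_zero h0
      exact ⟨z, hz⟩

end Crest.Agent.H4.SD
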