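import Crest.Agent.H4.SF.Defs

/-! The sequence of multiples of a generator (`t_seq`). -/

set_option autoImplicit false

namespace Crest.Agent.H4.SD

namespace SeqX

open WeierstrassCurve.Affine

theorem cd_unique {P : W.Point} {A D A' D' : ℕ} (h : Cd P A D) (h' : Cd P A' D') :
    A = A' ∧ D = D' := by
  obtain ⟨hA, hD, hc, y, hy, rfl⟩ := h
  obtain ⟨hA', hD', hc', y', hy', he⟩ := h'
  have hx : ((A : ℚ) / D) ^ 2 = ((A' : ℚ) / D') ^ 2 := (Point.some.inj he).1
  have h1 : (A : ℚ) / D = (A' : ℚ) / D' :=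
    (pow_left_inj₀ (by positivity) (by positivity) two_ne_zero).1 hx
  rw [div_eq_div_iff (by positivity) (by positivity)] at h1
  have h2 : A * D' = A' * D := by exact_mod_cast h1
  have hAA : A = A' := Nat.dvd_antisymm (hc.dvd_of_dvd_mul_right ⟨D', h2.symm⟩)
    (hc'.dvd_of_dvd_mul_right ⟨D, h2⟩)
  subst hAA
  exact ⟨rfl, (Nat.eq_of_mul_eq_mul_left hA h2).symm⟩

theorem cd_neg {P : W.Point} {A D : ℕ} (h : Cd P A D) : Cd (-P) A D := by
  obtain ⟨hA, hD, hc, y, hy, rfl⟩ := h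
  exact ⟨hA, hD, hc, _, _, Point.neg_some hy⟩

theorem cd_ne {P : W.Point} {A D : ℕ} (h : Cd P A D) : P ≠ 0 := by
  obtain ⟨hA, hD, hc, y, hy, rfl⟩ := h
  exact Point.some_ne_zero hy

theorem cd_pm {P Q : W.Point} {A D : ℕ} (h : Cd P A D) (h' : Cd Q A D) : P = Q ∨ P = -Q := by
  obtain ⟨hA, hD, hc, y, hy, rfl⟩ := h
  obtain ⟨-, -, -, y', hy', rfl⟩ := h'
  rcases Y_eq_of_X_eq hy.1 hy'.1 rfl with h | h
  · subst h; exact Or.inl rfl
  · subst h; exact Or.inr (Point.neg_some hy').symm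

theorem cd_finite (A D : ℕ) : {P | Cd P A D}.Finite := by
  by_cases h : ∃ Q, Cd Q A D
  · obtain ⟨Q, hQ⟩ := h
    exact (Set.toFinite {Q, -Q}).subset fun P hP => cd_pm hP hQ
  · exact Set.Finite.subset Set.finite_empty fun P hP => h ⟨P, hP⟩

open Classical in
/-- the code of a point -/
noncomputable def cd (P : W.Point) : ℕ × ℕ :=
  if h : ∃ c : ℕ × ℕ, Cd P c.1 c.2 then h.choose else (1, 1)

theorem cd_eq {P : W.Point} {A D : ℕ} (h : Cd P A D) : cd P = (A, D) := by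
  have h' : ∃ c : ℕ × ℕ, Cd P c.1 c.2 := ⟨(A, D), h⟩
  rw [cd, dif_pos h']
  exact Prod.ext (cd_unique h'.choose_spec h).1 (cd_unique h'.choose_spec h).2

theorem cd_zero : cd 0 = (1, 1) := by
  rw [cd, dif_neg]
  rintro ⟨c, hc⟩
  exact cd_ne hc rfl

theorem eqn (x y : ℚ) : W.Nonsingular x y ↔ y ^ 2 = x ^ 3 - 2 * x := by
  rw [← equation_iff_nonsingular_of_Δ_ne_zero, equation_iff]
  · simp only [W]
    constructor <;> intro h <;> linarith
  · simp only [W, WeierstrassCurve.Δ, WeierstrassCurve.b₂, WeierstrassCurve.b₄,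
      WeierstrassCurve.b₆, WeierstrassCurve.b₈]
    norm_num

theorem cd_of_sol {A D : ℕ} (h : Sol A D) : ∃ P, Cd P A D := by
  obtain ⟨hD, hc, s, hs⟩ := h
  have hA : 0 < A := by
    rcases Nat.eq_zero_or_pos A with rfl | h
    · have : 0 < D ^ 4 := by positivity
      omega
    · exact h
  have hs' : (s : ℚ) ^ 2 + 2 * (D : ℚ) ^ 4 = (A : ℚ) ^ 4 := by exact_mod_cast hs
  have hD' : (D : ℚ) ≠ 0 := by positivity
  have : W.Nonsingular (((A : ℚ) / D) ^ 2) (A * s / D ^ 3) := by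
    rw [eqn]
    field_simp
    linear_combination hs'
  exact ⟨_, hA, hD, hc, _, this, rfl⟩

theorem sol_of_cd {P : W.Point} {A D : ℕ} (h : Cd P A D) (h2 : 2 * D ^ 4 ≤ A ^ 4) : Sol A D := by
  obtain ⟨hA, hD, hc, y, hy, rfl⟩ := h
  refine ⟨hD, hc, ?_⟩
  rw [eqn] at hy
  have hD' : (D : ℚ) ≠ 0 := by positivity
  have hA' : (A : ℚ) ≠ 0 := by positivity
  have : IsSquare (((A ^ 4 - 2 * D ^ 4 : ℕ)) : ℚ) := by
    refine ⟨y * D ^ 3 / A, ?_⟩
    rw [Nat.cast_sub h2]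
    push_cast
    field_simp
    field_simp at hy
    linear_combination -hy
  obtain ⟨s, hs⟩ := Rat.isSquare_natCast_iff.1 this
  exact ⟨s, by rw [sq, ← hs]; omega⟩

/-- the doubled points -/
def G : AddSubgroup W.Point where
  carrier := {P | ∃ R, P = R + R}
  zero_mem' := ⟨0, by simp⟩
  add_mem' := by
    rintro _ _ ⟨R, rfl⟩ ⟨S, rfl⟩
    exact ⟨R + S, by abel⟩
  neg_mem' := by
    rintro _ ⟨R, rfl⟩
    exact ⟨-R, by abel⟩

end SeqX

open SeqX

theorem t_seq : T_seq := by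
  intro htq hhalf hcos hdbl hpar hgrp
  obtain ⟨g₁, hg₁G, hg₁, hcos'⟩ := hcos hhalf
  have hcode : ∀ P : G, P ≠ 0 → Cd (P : W.Point) (cd P).1 (cd P).2 := by
    intro P hP
    rcases (hhalf P).1 P.2 with h | ⟨A, D, h⟩
    · exact absurd (Subtype.ext h) hP
    · rw [cd_eq h]; exact h
  have hneg : ∀ P : G, cd ((-P : G) : W.Point) = cd (P : W.Point) := by
    intro P
    by_cases hP : P = 0
    · subst hP; rw [neg_zero]
    · exact cd_eq (cd_neg (hcode P hP))
  set a : G → ℕ := fun P => (cd (P : W.Point)).1 with ha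
  have a0 : a 0 = 1 := congrArg Prod.fst cd_zero
  have aneg : ∀ P, a (-P) = a P := fun P => congrArg Prod.fst (hneg P)
  have adbl : ∀ P, a P ^ 4 ≤ a (P + P) ∧ a (P + P) ≤ 2 * a P ^ 4 := by
    intro P
    by_cases hP : P = 0
    · subst hP; rw [add_zero, a0]; norm_num
    · obtain ⟨-, h2, D', h3⟩ := hdbl _ _ _ (hcode P hP)
      have : a (P + P) = a P ^ 4 + 2 * (cd P).2 ^ 4 := congrArg Prod.fst (cd_eq h3)
      have h2' : 2 * (cd P).2 ^ 4 ≤ a P ^ 4 := h2
      omega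
  obtain ⟨g, l, hl, hgen, hb⟩ := hgrp G a ⟨g₁, hg₁G⟩ a0
    (fun P hP => (hdbl _ _ _ (hcode P hP)).1) adbl
    (fun P Q => by
      by_cases hP : P = 0
      · subst hP; rw [zero_add, zero_sub, aneg, a0]; nlinarith
      by_cases hQ : Q = 0
      · subst hQ; rw [add_zero, sub_zero, a0]; nlinarith
      by_cases h1 : P + Q = 0
      · have : Q = -P := (neg_eq_of_add_eq_zero_right h1).symm
        subst this
        rw [h1, a0, sub_neg_eq_add, aneg]
        have := (adbl P).2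
        nlinarith
      by_cases h2 : P - Q = 0
      · have : P = Q := sub_eq_zero.1 h2
        subst this
        rw [h2, a0]
        have := (adbl P).2
        nlinarith
      exact hpar _ _ _ _ _ _ _ _ _ _ (hcode P hP) (hcode Q hQ) (hcode _ h1) (hcode _ h2))
    (fun B => by
      have hf : ({0} ∪ ⋃ A ∈ Set.Iic B, ⋃ D ∈ Set.Iic B, {P : W.Point | Cd P A D}).Finite :=
        (Set.finite_singleton _).union ((Set.finite_Iic B).biUnion fun A _ =>
          (Set.finite_Iic B).biUnion fun D _ => cd_finite A D)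
      refine (hf.preimage Subtype.val_injective.injOn).subset fun P hP => ?_
      by_cases hP0 : P = 0
      · subst hP0; exact Or.inl rfl
      · have h := hcode P hP0
        have h2 := (hdbl _ _ _ h).2.1
        have h3 : (cd P).2 ≤ (cd P).1 := by
          by_contra hc
          have := Nat.pow_le_pow_left (not_le.1 hc).le 4
          have h4 : 0 < (cd P).2 ^ 4 := pow_pos h.2.1 4
          omega
        refine Or.inr ?_
        simp only [Set.mem_iUnion]
        exact ⟨_, hP, _, h3.trans hP, h⟩)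
    (fun P => by
      obtain ⟨R, hR⟩ := P.2
      obtain ⟨R', h | h⟩ := hcos' R
      · exact ⟨⟨R' + R', R', rfl⟩, Or.inl (Subtype.ext (hR.trans h))⟩
      · exact ⟨⟨R' + R', R', rfl⟩, Or.inr (Subtype.ext (hR.trans h))⟩)
    (fun h => hg₁ (congrArg Subtype.val h))
  have hne : ∀ k : ℤ, k ≠ 0 → k • g ≠ 0 := by
    intro k hk h0
    have h1 := (hb k).2
    rw [h0, a0] at h1
    have h2 : l ^ 1 ≤ l ^ (k.natAbs ^ 2) :=
      pow_le_pow_right₀ (by linarith) (Nat.one_le_pow _ _ (Int.natAbs_pos.2 hk))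
    push_cast at h1
    linarith
  have hinj : ∀ i j : ℤ, i • g = j • g ↔ i = j := fun i j =>
    ⟨fun h => by
      by_contra hij
      exact hne (i - j) (sub_ne_zero.2 hij) (by rw [sub_smul, h, sub_self]), fun h => h ▸ rfl⟩
  have hc : ∀ k : ℕ, 1 ≤ k → Cd (((k : ℤ) • g : G) : W.Point) (cd ((k : ℤ) • g : G)).1
      (cd ((k : ℤ) • g : G)).2 := fun k hk => hcode _ (hne k (by omega))
  refine ⟨fun k => (cd ((k : ℤ) • g : G)).1, fun k => (cd ((k : ℤ) • g : G)).2, l, hl,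
    fun A D => ⟨fun h => ?_, ?_⟩, fun k _ => (hb k).1, fun k _ => (hb k).2,
    fun i j k hi hj hk => ?_⟩
  · obtain ⟨P, hP⟩ := cd_of_sol h
    obtain ⟨k, hk⟩ := hgen ⟨P, (hhalf P).2 (Or.inr ⟨A, D, hP⟩)⟩
    have hk0 : k ≠ 0 := by
      rintro rfl
      rw [zero_smul] at hk
      exact cd_ne hP (congrArg Subtype.val hk)
    have h1 : cd ((k • g : G) : W.Point) = (A, D) := by rw [← hk]; exact cd_eq hP
    have h2 : cd (((k.natAbs : ℤ) • g : G) : W.Point) = (A, D) := by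
      rcases Int.natAbs_eq k with h | h
      · rw [← h, h1]
      · rw [← hneg, ← neg_smul, ← h, h1]
    exact ⟨k.natAbs, Int.natAbs_pos.2 hk0, by rw [h2], by rw [h2]⟩
  · rintro ⟨k, hk, rfl, rfl⟩
    exact sol_of_cd (hc k hk) (hdbl _ _ _ (hc k hk)).2.1
  · obtain ⟨-, -, -, y₁, h₁, e₁⟩ := hc i hi
    obtain ⟨-, -, -, y₂, h₂, e₂⟩ := hc j hj
    obtain ⟨-, -, -, y₃, h₃, e₃⟩ := hc k hk
    rw [htq _ _ _ _ _ _ h₁ h₂ h₃ _ _ _ e₁ e₂ e₃]
    simp only [← AddSubgroup.coe_add, ← AddSubgroup.coe_sub, ← AddSubgroup.coe_neg,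
      Subtype.val_inj, ← add_smul, ← sub_smul, ← neg_smul, hinj]
    omega

end Crest.Agent.H4.SD
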