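import Crest.Agent.H4.SF.Defs

/-! Task `tq`. -/

set_option autoImplicit false

namespace Crest.Agent.H4.SD

open WeierstrassCurve WeierstrassCurve.Affine

namespace TQa

theorem eqn {x y : ℚ} (h : W.Nonsingular x y) : y ^ 2 = x ^ 3 - 2 * x := by
  have := (W.equation_iff x y).1 h.1
  simp only [W] at this
  linarith

theorem negY (x y : ℚ) : W.negY x y = -y := by simp [Affine.negY, W]

theorem addX (x₁ x₂ l : ℚ) : W.addX x₁ x₂ l = l ^ 2 - x₁ - x₂ := by simp [Affine.addX, W]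

theorem x_zero {x : ℚ} (h : (0 : ℚ) ^ 2 = x ^ 3 - 2 * x) : x = 0 := by
  by_contra hx
  have h2 : x ^ 2 = 2 := by
    have : x * (x ^ 2 - 2) = 0 := by linarith
    rcases mul_eq_zero.1 this with h | h
    · exact absurd h hx
    · linarith
  have h3 : IsSquare (2 : ℚ) := ⟨x, by rw [← h2, sq]⟩
  have h4 : IsSquare ((2 : ℕ) : ℚ) := by exact_mod_cast h3
  rw [Rat.isSquare_natCast_iff] at h4
  exact Nat.prime_two.prime.not_isSquare h4

theorem dbl {x y x₃ y₃ : ℚ} (h : W.Nonsingular x y) (h₃ : W.Nonsingular x₃ y₃) :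
    Tq x x x₃ = 0 ↔ (Point.some _ _ h₃ = Point.some _ _ h + Point.some _ _ h ∨
      Point.some _ _ h₃ = -(Point.some _ _ h + Point.some _ _ h)) := by
  have e := eqn h
  by_cases hy : y = 0
  · subst hy
    have hx := x_zero e
    subst hx
    rw [Point.add_self_of_Y_eq (by rw [negY, _root_.neg_zero]), _root_.neg_zero]
    simp [Tq, Point.some_ne_zero]
  · have hy' : y ≠ W.negY x y := by
      rw [negY]; intro h'; exact hy (by linarith)
    rw [Point.add_self_of_Y_ne hy', ← Point.X_eq_iff, addX, slope_of_Y_ne rfl hy', negY]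
    have e2 : Tq x x x₃ = (x ^ 2 + 2) ^ 2 - 4 * y ^ 2 * x₃ := by rw [e, Tq]; ring
    have e3 : ((3 * x ^ 2 + 2 * W.a₂ * x + W.a₄ - W.a₁ * y) / (y - -y)) ^ 2 - x - x =
        (x ^ 2 + 2) ^ 2 / (4 * y ^ 2) := by
      simp only [W]
      field_simp
      rw [e]; ring
    rw [e3, e2, eq_div_iff (by positivity)]
    constructor <;> intro h' <;> linarith

end TQa

theorem t_tq : T_tq := by
  intro x₁ y₁ x₂ y₂ x₃ y₃ h₁ h₂ h₃ P Q R hP hQ hR
  subst hP hQ hR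
  by_cases hx : x₁ = x₂
  · subst hx
    rw [TQa.dbl h₁ h₃]
    rcases (Point.X_eq_iff (h₁ := h₂) (h₂ := h₁)).1 rfl with h | h
    · rw [h, sub_self, _root_.neg_zero]
      simp [Point.some_ne_zero]
    · rw [h, add_neg_cancel, _root_.neg_zero, sub_neg_eq_add]
      simp [Point.some_ne_zero]
  · rw [← or_assoc, sub_eq_add_neg, Point.neg_some, Point.add_of_X_ne hx, Point.add_of_X_ne hx,
      ← Point.X_eq_iff, ← Point.X_eq_iff, TQa.addX, TQa.addX, slope_of_X_ne hx, slope_of_X_ne hx,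
      TQa.negY]
    have e₁ := TQa.eqn h₁
    have e₂ := TQa.eqn h₂
    have hd : x₁ - x₂ ≠ 0 := sub_ne_zero.2 hx
    have e : Tq x₁ x₂ x₃ = (x₁ - x₂) ^ 2 * ((x₃ - (((y₁ - y₂) / (x₁ - x₂)) ^ 2 - x₁ - x₂)) *
        (x₃ - (((y₁ - -y₂) / (x₁ - x₂)) ^ 2 - x₁ - x₂))) := by
      have f : ∀ u v : ℚ, (x₁ - x₂) ^ 2 * u = (y₁ - y₂) ^ 2 - (x₁ + x₂) * (x₁ - x₂) ^ 2 →
          (x₁ - x₂) ^ 2 * v = (y₁ + y₂) ^ 2 - (x₁ + x₂) * (x₁ - x₂) ^ 2 →
          Tq x₁ x₂ x₃ = (x₁ - x₂) ^ 2 * ((x₃ - u) * (x₃ - v)) := by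
        intro u v hu hv
        have hs : (x₁ - x₂) ^ 2 * (u + v) = 2 * (x₁ + x₂) * (x₁ * x₂ - 2) := by
          linear_combination hu + hv + 2 * e₁ + 2 * e₂
        have hp : (x₁ - x₂) ^ 2 * (u * v) = (x₁ * x₂ + 2) ^ 2 := by
          apply mul_left_cancel₀ (pow_ne_zero 2 hd)
          have h1 : (x₁ - x₂) ^ 2 * ((x₁ - x₂) ^ 2 * (u * v)) =
              ((x₁ - x₂) ^ 2 * u) * ((x₁ - x₂) ^ 2 * v) := by ring
          have h2 : ((y₁ - y₂) ^ 2 - (x₁ + x₂) * (x₁ - x₂) ^ 2) *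
              ((y₁ + y₂) ^ 2 - (x₁ + x₂) * (x₁ - x₂) ^ 2) =
              (y₁ ^ 2 - y₂ ^ 2) ^ 2 - 2 * (y₁ ^ 2 + y₂ ^ 2) * ((x₁ + x₂) * (x₁ - x₂) ^ 2) +
                ((x₁ + x₂) * (x₁ - x₂) ^ 2) ^ 2 := by ring
          rw [h1, hu, hv, h2, e₁, e₂]; ring
        rw [Tq]
        linear_combination x₃ * hs - hp
      apply f <;> field_simp <;> ring
    rw [e, mul_eq_zero, mul_eq_zero, sub_eq_zero, sub_eq_zero, or_iff_right (pow_ne_zero 2 hd)]

end Crest.Agent.H4.SD
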